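import Vale.Agent.P329.H112.TwoMarks.Text

set_option linter.all false

/-!
Chains of long gaps inside a block.
-/

namespace Vale.Agent.P329.TwoMarks

open Vale.Agent.P329 Vale.Agent.P329.Slow Vale.Agent.P329.Mark

section chain

variable {α : Type} {U S : Set (List α)} {m T N k : ℕ} {g b W x : List α}

theorem Chain.len (h : Chain U S m T N k g) : m ≤ g.length := by
  induction h with
  | start W h1 h2 => exact h2.ge
  | short k g W x _ _ _ _ _ ih => rw [List.length_append]; omega
  | long k g W x _ _ _ _ _ _ ih => rw [List.length_append]; omega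

theorem Chain.split (h : Chain U S m T N k g) : ∀ t < k, ∃ R' x R'' W : List α,
    g = R' ++ x ++ R'' ∧ Chain U S m T N t R' ∧ R'.take m = g.take m ∧ W <:+ R' ∧
      W.length = m ∧ IsGap U m (W ++ x) ∧ T + N + m ≤ x.length ∧ Plain S (N + m) (W ++ x) := by
  induction h with
  | start W h1 h2 => intro t ht; omega
  | short k g W x h1 h2 h3 h4 h5 ih =>
    intro t ht
    obtain ⟨R', x', R'', W', e1, e2, e3, e4, e5, e6, e7, e8⟩ := ih t ht
    refine ⟨R', x', R'' ++ x, W', by rw [e1, List.append_assoc], e2, ?_, e4, e5, e6, e7, e8⟩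
    rw [e3, List.take_append_of_le_length h1.len]
  | long k g W x h1 h2 h3 h4 h5 h6 ih =>
    intro t ht
    by_cases hk : t = k
    · subst hk
      refine ⟨g, x, [], W, by rw [List.append_nil], h1, ?_, h2, h3, h4, h5, h6⟩
      rw [List.take_append_of_le_length h1.len]
    · obtain ⟨R', x', R'', W', e1, e2, e3, e4, e5, e6, e7, e8⟩ := ih t (by omega)
      refine ⟨R', x', R'' ++ x, W', by rw [e1, List.append_assoc], e2, ?_, e4, e5, e6, e7, e8⟩
      rw [e3, List.take_append_of_le_length h1.len]

/-- the common part: a gap word which ends while `x` is read starts inside the last mark -/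
theorem gap_in {z : List α} {t : ℕ} (hW : W <:+ b) (hl : W.length = m) (hU : W ∈ U)
    (hg : IsGap U m z) (hz : z <:+ b ++ x.take t) (ht : x.take t ≠ []) :
    z <:+ W ++ x.take t := by
  obtain ⟨p, rfl⟩ := hW
  refine gap_suffix (h := p) hg ?_ ?_ hl.ge ht
  · rwa [← List.append_assoc]
  · rwa [List.take_of_length_le hl.le]

theorem gap_mark (hl : W.length = m) (h : IsGap U m (W ++ x)) : W ∈ U := by
  have h1 := h.2.1
  rwa [List.take_append_of_le_length hl.ge, List.take_of_length_le hl.le] at h1

theorem take_ne {x : List α} {t : ℕ} (h0 : 0 < t) (h1 : t ≤ x.length) : x.take t ≠ [] := by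
  intro h2
  have := congrArg List.length h2
  rw [List.length_take, List.length_nil] at this
  omega

theorem gap_quiet (hW : W <:+ b) (hl : W.length = m) (h : IsGap U m (W ++ x)) {t : ℕ}
    (h0 : 0 < t) (h1 : t < x.length) : ¬ Ev (Lg U m T) (b ++ x.take t) := by
  rintro ⟨z, hz, hg⟩
  have h2 := gap_in hW hl (gap_mark hl h) hg.1 hz (take_ne h0 h1.le)
  have h3 := hg.1.1
  have h4 : z.drop (z.length - m) <:+ (W ++ x).take (m + t) := by
    rw [← hl, List.take_length_add_append, hl]
    exact (List.drop_suffix _ _).trans h2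
  have h5 := win (m := m) h4 (by rw [List.length_append]; omega)
    (by rw [List.length_drop]; omega)
  rw [List.take_of_length_le (by rw [List.length_drop]; omega), List.length_drop] at h5
  have h6 := hg.1.2.2.1
  rw [h5] at h6
  refine h.2.2.2 _ ?_ ?_ h6
  · omega
  · rw [List.length_append]; omega

theorem gap_short (hW : W <:+ b) (hl : W.length = m) (h : IsGap U m (W ++ x))
    (hx : x.length < T) {t : ℕ} (h0 : 0 < t) (h1 : t ≤ x.length) :
    ¬ Ev (Lg U m T) (b ++ x.take t) := by
  rintro ⟨z, hz, hg⟩
  have h2 := gap_in hW hl (gap_mark hl h) hg.1 hz (take_ne h0 h1)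
  have h3 := h2.length_le
  have h4 := hg.2
  rw [List.length_append, List.length_take] at h3
  omega

end chain

section count

variable {α V : Type} [AddCommGroup V] {M : α → V →+ V} {U S : Set (List α)} {m T N k : ℕ}

theorem zrun_part {B x : List α} {s : ℕ}
    (h : ∀ t, 0 < t → t ≤ s → ¬ Ev (Lg U m T) (zb M U m T B ++ x.take t)) (hs : s ≤ x.length) :
    zs M U m T (B ++ x.take s) = zs M U m T B ∧
      zb M U m T (B ++ x.take s) = zb M U m T B ++ x.take s := by
  have e1 : zrun M U m T ([], []) (B ++ x.take s) = (zs M U m T B, zb M U m T B ++ x.take s) := by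
    rw [zrun_append]
    refine zrun_quiet fun t h1 h2 => ?_
    rw [List.length_take] at h2
    rw [List.take_take, min_eq_left (by omega)]
    exact h t h1 (by omega)
  constructor
  · show (zrun M U m T ([], []) (B ++ x.take s)).1 = _
    rw [e1]
  · show (zrun M U m T ([], []) (B ++ x.take s)).2 = _
    rw [e1]

theorem zb_last {B W : List α} (h1 : B.take m ∈ U) (h2 : m ≤ B.length) (hW : W <:+ B)
    (hl : W.length = m) : W <:+ zb M U m T B := by
  obtain ⟨w1, h3, -, -, h4⟩ := zrun_block (M := M) (T := T) h1 h2
  exact List.suffix_of_suffix_length_le hW ⟨w1, h3.symm⟩ (by omega)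

theorem Chain.count {g : List α} (h : Chain U S m T N k g) (G1 : List α)
    (h1 : (G1 ++ g).take m ∈ U) :
    (zs M U m T (G1 ++ g)).length = (zs M U m T (G1 ++ g.take m)).length + k := by
  induction h with
  | start W h2 h3 => rw [List.take_of_length_le h3.le, add_zero]
  | short k g W x h2 h3 h4 h5 h6 ih =>
    have hlen := h2.len
    have h7 : m ≤ (G1 ++ g).length := by rw [List.length_append]; omega
    rw [← List.append_assoc, List.take_append_of_le_length h7] at h1
    have h8 := zb_last (M := M) (T := T) h1 h7 (h3.trans (List.suffix_append _ _)) h4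
    have h9 := (zrun_part (M := M) (B := G1 ++ g) (x := x) (s := x.length)
      (fun t ht1 ht2 => gap_short h8 h4 h5 h6 ht1 ht2) le_rfl).1
    rw [List.take_length] at h9
    rw [← List.append_assoc, h9, ih h1, List.take_append_of_le_length hlen]
  | long k g W x h2 h3 h4 h5 h6 h6' ih =>
    have hlen := h2.len
    have h7 : m ≤ (G1 ++ g).length := by rw [List.length_append]; omega
    rw [← List.append_assoc, List.take_append_of_le_length h7] at h1
    have h8 := zb_last (M := M) (T := T) h1 h7 (h3.trans (List.suffix_append _ _)) h4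
    have hx : x ≠ [] := by
      rintro rfl
      have := h5.1
      rw [List.append_nil] at this
      omega
    have h9 : zrun M U m T (zs M U m T (G1 ++ g), zb M U m T (G1 ++ g)) x = _ :=
      zrun_event hx (fun t ht1 ht2 => gap_quiet h8 h4 h5 ht1 ht2) (by
        obtain ⟨p, hp⟩ := h8
        refine ⟨W ++ x, ⟨p, ?_⟩, h5, ?_⟩
        · rw [← List.append_assoc, hp]
        · rw [List.length_append]; omega)
    have h10 : zs M U m T (G1 ++ g ++ x) =
        (zrun M U m T (zs M U m T (G1 ++ g), zb M U m T (G1 ++ g)) x).1 := by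
      show (zrun M U m T ([], []) (G1 ++ g ++ x)).1 = _
      rw [zrun_append]
      rfl
    rw [← List.append_assoc, h10, h9, List.length_append, ih h1,
      List.take_append_of_le_length hlen]
    rfl

end count

section cuts

variable {α V : Type} [AddCommGroup V] (M : α → V →+ V) {U S : Set (List α)} {m T N : ℕ}

/-- the places for a cut in the long gap number `t` of a block `G` -/
theorem cut_data (hm : 0 < m) (hT : m = 1 ∨ N + m ≤ T) {G G1 R G2 : List α} (hN : 0 < N)
    (hG : G = G1 ++ R ++ G2) (h1 : G.take m ∈ U) (h2 : m ≤ G.length)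
    (he : Ev (Big U S m T) G)
    (hp : ∀ c z : List α, c <+: G → c ≠ G → z <:+ c → ¬ Big U S m T z)
    (hR : Chain U S m T N N R) (t : ℕ) (ht : t < N) :
    ∃ (l1 l2 : List (Zone V)) (g0 : V →+ V) (n o : ℕ),
      zs M U m T G = l1 ++ (g0, n) :: l2 ∧
      l1.length = (zs M U m T (G1 ++ R.take m)).length + t ∧ o + N ≤ n ∧
      ∀ s < N, ∃ B w : List α, G = B ++ w ∧ w ≠ [] ∧ m ≤ B.length ∧ B.take m ∈ U ∧ LC U m N B ∧
        RC U S m T N w (n - o - s) ∧ zs M U m T B = l1 ∧ (zb M U m T B).length = o + s ∧
        zs M U m T (w.drop (n - o - s)) = l2 := by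
  obtain ⟨R', x, R'', W, hR1, hR2, hR3, hR4, hR5, hR6, hR7, hR8⟩ := hR.split t ht
  have hlR' := hR2.len
  have hWU := gap_mark hR5 hR6
  set A := G1 ++ R' with hA
  have hGA : G = A ++ x ++ (R'' ++ G2) := by rw [hG, hR1, hA]; simp only [List.append_assoc]
  have hlA : m ≤ A.length := by rw [hA, List.length_append]; omega
  have hAU : A.take m ∈ U := by
    rwa [hGA, List.append_assoc, List.take_append_of_le_length hlA] at h1
  have hWA : W <:+ A := hR4.trans (List.suffix_append _ _)
  have hzb := zb_last (M := M) (T := T) hAU hlA hWA hR5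
  have hcnt := hR2.count (M := M) G1 hAU
  rw [hR3] at hcnt
  -- the rest is not empty
  have hne : R'' ++ G2 ≠ [] := by
    intro h3
    obtain ⟨z, hz, hzB⟩ := he
    rw [hGA, h3, List.append_nil] at hz
    obtain ⟨p, hp'⟩ := hWA
    have h4 : W ++ x <:+ A ++ x := ⟨p, by rw [← List.append_assoc, hp']⟩
    have h5 := gap_unique hzB.1 hR6 hz h4
    have h6 := hzB.2.2
    rw [h5] at h6
    exact hR8 [] (W ++ x) [] rfl (Nat.zero_le _) (Nat.zero_le _) h6
  -- the last mark of the long gap
  set W' := x.drop (x.length - m) with hW'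
  have hlW' : W'.length = m := by rw [hW', List.length_drop]; omega
  have hW'U : W' ∈ U := by
    have h3 := hR6.2.2.1
    rwa [← drop_sub_of_suffix (List.suffix_append W x) (by omega)] at h3
  have hev : Ev (Big U S m T) (W' ++ (R'' ++ G2)) := by
    obtain ⟨z, hz, hzB⟩ := he
    refine ⟨z, ?_, hzB⟩
    have e1 : G = (A ++ x.take (x.length - m)) ++ (W' ++ (R'' ++ G2)) := by
      rw [hGA, hW']
      conv_lhs => rw [← List.take_append_drop (x.length - m) x]
      simp only [List.append_assoc]
    rw [e1] at hz
    exact gap_suffix hzB.1 hz (by rwa [List.take_of_length_le hlW'.le]) hlW'.ge hne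
  -- the cuts
  have hcut : ∀ s < N, RC U S m T N (x.drop s ++ (R'' ++ G2)) (x.length - m - s) ∧
      (x.drop s ++ (R'' ++ G2)).drop (x.length - m - s) = W' ++ (R'' ++ G2) := by
    intro s hs
    have hd : (x.drop s ++ (R'' ++ G2)).drop (x.length - m - s) = W' ++ (R'' ++ G2) := by
      rw [List.drop_append_of_le_length (by rw [List.length_drop]; omega), List.drop_drop, hW']
      congr 2
      omega
    refine ⟨⟨?_, ?_, by omega, ?_, ?_, ?_⟩, hd⟩
    · rw [hd, List.take_append_of_le_length hlW'.ge, List.take_of_length_le hlW'.le]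
      exact hW'U
    · intro i hi h3
      have e1 : ((x.drop s ++ (R'' ++ G2)).drop i).take m = ((W ++ x).drop (m + s + i)).take m := by
        rw [List.drop_append_of_le_length (by rw [List.length_drop]; omega), List.drop_drop,
          List.take_append_of_le_length (by rw [List.length_drop]; omega),
          show m + s + i = W.length + (s + i) by omega, List.drop_length_add_append]
      rw [e1] at h3
      refine hR6.2.2.2 _ (by omega) ?_ h3
      rw [List.length_append]; omega
    · intro y hy h3
      have e1 : (x.drop s ++ (R'' ++ G2)).take (x.length - m - s + m) = x.drop s := by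
        rw [List.take_append_of_le_length (by rw [List.length_drop]; omega),
          List.take_of_length_le (by rw [List.length_drop]; omega)]
      rw [e1] at h3
      refine hR8 (W ++ x.take s) (x.drop s) y ?_ ?_ hy h3
      · rw [List.append_assoc, List.take_append_drop]
      · rw [List.length_append, List.length_take]; omega
    · rw [hd]; exact hev
    · intro r hr h3
      rw [hd] at hr h3
      obtain ⟨z, hz, hzB⟩ := h3
      have e1 : G = (A ++ x.take (x.length - m)) ++ (W' ++ (R'' ++ G2)) := by
        rw [hGA, hW']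
        conv_lhs => rw [← List.take_append_drop (x.length - m) x]
        simp only [List.append_assoc]
      refine hp ((A ++ x.take (x.length - m)) ++ (W' ++ (R'' ++ G2)).take r) z ?_ ?_ ?_ hzB
      · refine ⟨(W' ++ (R'' ++ G2)).drop r, ?_⟩
        rw [List.append_assoc, List.take_append_drop, ← e1]
      · intro h4
        have h5 := congrArg List.length h4
        rw [e1] at h5
        simp only [List.length_append, List.length_take] at h5 hr
        omega
      · exact hz.trans (List.suffix_append _ _)
  have hLC : ∀ s < N, LC U m N (A ++ x.take s) := by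
    intro s hs
    obtain ⟨p, hp'⟩ := hWA
    refine ⟨W ++ x.take s, ⟨p, ?_⟩, ?_, ?_, ?_⟩
    · rw [← List.append_assoc, hp']
    · rw [List.length_append]; omega
    · rw [List.length_append, List.length_take]; omega
    · rw [List.take_append_of_le_length hR5.ge, List.take_of_length_le hR5.le]; exact hWU
  have hB1 : ∀ s, (A ++ x.take s).take m ∈ U := fun s => by
    rw [List.take_append_of_le_length hlA]; exact hAU
  have hB2 : ∀ s, m ≤ (A ++ x.take s).length := fun s => by
    rw [List.length_append]; omega
  have hGs : ∀ s, G = (A ++ x.take s) ++ (x.drop s ++ (R'' ++ G2)) := by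
    intro s
    rw [hGA]
    conv_lhs => rw [← List.take_append_drop s x]
    simp only [List.append_assoc]
  have hz : ∀ s < N, zs M U m T (A ++ x.take s) = zs M U m T A ∧
      zb M U m T (A ++ x.take s) = zb M U m T A ++ x.take s := by
    intro s hs
    refine zrun_part (fun r hr1 hr2 => gap_quiet hzb hR5 hR6 hr1 ?_) (by omega)
    omega
  have hjun := junction_zs (M := M) hm hT (hB1 0) (hB2 0) (hLC 0 hN) (hcut 0 hN).1
  rw [← hGs 0, (hz 0 hN).1, (hz 0 hN).2, (hcut 0 hN).2] at hjun
  refine ⟨_, _, _, _, (zb M U m T A).length, hjun, hcnt, ?_, ?_⟩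
  · rw [List.length_append]; omega
  · intro s hs
    have e1 : (zb M U m T A ++ x.take 0).length + (x.length - m - 0) - (zb M U m T A).length - s =
        x.length - m - s := by
      rw [List.length_append, List.length_take]; omega
    refine ⟨A ++ x.take s, x.drop s ++ (R'' ++ G2), hGs s, ?_, hB2 s, hB1 s, hLC s hs, ?_,
      (hz s hs).1, ?_, ?_⟩
    · intro h3
      exact hne (List.append_eq_nil_iff.1 h3).2
    · rw [e1]; exact (hcut s hs).1
    · rw [(hz s hs).2, List.length_append, List.length_take]; omega
    · rw [e1, (hcut s hs).2]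

end cuts

end Vale.Agent.P329.TwoMarks
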