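import Mathlib.Data.Set.Basic
import Mathlib.Data.List.Basic

namespace Vale.Agent.P329.TwoMarks

variable {α : Type}

/-- A mark of a word is a window of length `m` which belongs to `U`. The word `z` is a gap word: it
starts with a mark, ends with another mark, and there are no other marks in it. The gap (the
distance of the two marks) is `z.length - m`. -/
def IsGap (U : Set (List α)) (m : ℕ) (z : List α) : Prop :=
  m < z.length ∧ z.take m ∈ U ∧ z.drop (z.length - m) ∈ U ∧
    ∀ i, 0 < i → i + m < z.length → (z.drop i).take m ∉ U

/-- `z` is a gap word with a gap at least `T`, and it belongs to `S`. -/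
def Big (U S : Set (List α)) (m T : ℕ) (z : List α) : Prop :=
  IsGap U m z ∧ T + m ≤ z.length ∧ z ∈ S

/-- No word which arises from `z` when a prefix of length at most `b` is replaced by a word of
length at most `b` belongs to `S`. -/
def Plain (S : Set (List α)) (b : ℕ) (z : List α) : Prop :=
  ∀ p s x : List α, z = p ++ s → p.length ≤ b → x.length ≤ b → x ++ s ∉ S

/-- `Chain U S m T N k g`: the word `g` starts and ends with a mark; all its gaps are smaller than
`T`, except for `k` gaps which are at least `T + N + m` and whose gap words are plain. -/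
inductive Chain (U S : Set (List α)) (m T N : ℕ) : ℕ → List α → Prop
  | start (W : List α) : W ∈ U → W.length = m → Chain U S m T N 0 W
  | short (k : ℕ) (g W x : List α) : Chain U S m T N k g → W <:+ g → W.length = m →
      IsGap U m (W ++ x) → x.length < T → Chain U S m T N k (g ++ x)
  | long (k : ℕ) (g W x : List α) : Chain U S m T N k g → W <:+ g → W.length = m →
      IsGap U m (W ++ x) → T + N + m ≤ x.length → Plain S (N + m) (W ++ x) →
      Chain U S m T N (k + 1) (g ++ x)

/-- `g` is rich: `g = a ++ b`, where `b` starts with the last mark of a big gap word `a ++ W`, `b`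
ends with a big gap word and no proper prefix of `b` does so; and `b` contains a chain with `N` long
gaps. -/
def Rich (U S : Set (List α)) (m T N : ℕ) (g : List α) : Prop :=
  ∃ a b : List α, g = a ++ b ∧ m ≤ b.length ∧ Big U S m T (a ++ b.take m) ∧
    (∃ z, z <:+ b ∧ Big U S m T z) ∧
    (∀ c z : List α, c <+: b → c ≠ b → z <:+ c → ¬ Big U S m T z) ∧
    ∃ R, R <:+: b ∧ Chain U S m T N N R

/-- Marks which are letters. The word `g` is a block between two consecutive letters of `X`, and
between them it contains a factor `s z₁ s₁ z₂ s₂ ⋯ z_N s_N` with letters `s`, `sᵢ` of `Y` and words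
`zᵢ` without letters of `Y`, of length at least `N`. -/
def GoodBlock (X Y : Set α) (N : ℕ) (g : List α) : Prop :=
  ∃ (t : α) (x : List α) (t' : α), g = t :: (x ++ [t']) ∧ t ∈ X ∧ t' ∈ X ∧ (∀ a ∈ x, a ∉ X) ∧
    ∃ (s : α) (l : List (List α × α)), s ∈ Y ∧ l.length = N ∧
      (∀ p ∈ l, N ≤ p.1.length ∧ (∀ a ∈ p.1, a ∉ Y) ∧ p.2 ∈ Y) ∧
      s :: (l.map fun p => p.1 ++ [p.2]).flatten <:+: x

end Vale.Agent.P329.TwoMarks
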