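import Vale.Agent.P329.H112.TwoMarks.Sys
import Vale.Agent.P329.H112.TwoMarks.Chains
import Vale.Agent.P329.Mark.Long

set_option linter.all false

/-!
Two kinds of marks: the cut system and the regular languages.
-/

namespace Vale.Agent.P329.TwoMarks

open Vale.Agent.P329 Vale.Agent.P329.Slow Vale.Agent.P329.Mark Vale.Agent.P329.Clock

theorem exists_residue {K N D κ : ℕ} (hK : K ≤ N) (hκ : κ < K) (hD : N ≤ D + 1) :
    ∃ t < N, (D - t) % K = κ := by
  have hK0 : 0 < K := by omega
  have h1 := Nat.mod_lt (D + (K - κ)) hK0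
  have h2 := Nat.div_add_mod (D + (K - κ)) K
  refine ⟨(D + (K - κ)) % K, by omega, ?_⟩
  generalize (D + (K - κ)) % K = t at h1 h2
  generalize (D + (K - κ)) / K = q at h2
  obtain ⟨q, rfl⟩ : ∃ q', q = q' + 1 := by
    cases q with
    | zero => exfalso; rw [Nat.mul_zero] at h2; omega
    | succ q => exact ⟨q, rfl⟩
  rw [Nat.mul_add, Nat.mul_one] at h2
  have h3 : D - t = K * q + κ := by omega
  rw [h3, Nat.mul_add_mod, Nat.mod_eq_of_lt hκ]

section sys

variable {α V : Type} [AddCommGroup V] {M : α → V →+ V} {U S : Set (List α)} {m T N : ℕ}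
  {Z : ZoneSys V}

theorem sysT (hm : 0 < m) (hT : m = 1 ∨ N + m ≤ T) (hK : Z.K ≤ N) (hN : Z.N ≤ N) (C : ℕ) :
    CS (C + 1) (EE M U S m T Z) (PL M U S m T N Z) (PR M U S m T N (C + 1) Z)
      (lam M U S m T Z) (Psi M U S m T N (C + 1) Z)
      {g | Rich U S m T N g ∧ g.length ≤ C} where
  pos := Nat.succ_pos C
  plApp := by
    rintro y u _ ⟨h, B, rfl, H⟩
    exact ⟨u ++ h, B, by rw [List.append_assoc], H.left u⟩
  lamApp := by
    rintro y u _ ⟨h, B, rfl, H⟩
    unfold lam
    rw [H.bf, ← List.append_assoc, (H.left u).bf]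
  prApp := by
    rintro y k z ⟨e, j, H⟩
    have e1 : (k ++ z).take e = k.take e := List.take_append_of_le_length H.len
    refine ⟨e, j, H.le, ?_, ?_, ?_⟩
    · rw [List.length_append]; have := H.len; omega
    · rw [e1]; exact H.rc
    · rw [e1]; exact H.ra
  prLoc := by
    rintro y k z ⟨e, j, H⟩ hk
    have e1 : (k ++ z).take e = k.take e :=
      List.take_append_of_le_length (H.le.trans hk)
    refine ⟨e, j, H.le, H.le.trans hk, ?_, ?_⟩
    · rw [← e1]; exact H.rc
    · rw [← e1]; exact H.ra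
  junc := by
    rintro y y' _ z x ⟨h, B, rfl, HL⟩ ⟨e, j, HR⟩ hE
    have hex : ∃ p : ℕ × ℕ, RQ M U S m T N (C + 1) Z z p.1 p.2 := ⟨(e, j), HR⟩
    unfold Psi
    rw [dif_pos hex]
    exact psi_eq hm hT HL hex.choose_spec hE
  cutIn := by
    rintro g ⟨⟨a, G, rfl, h1, h2, h3, h4, R, ⟨G1, G2, hG⟩, hR⟩, hC⟩ u x
    have hN0 : 0 < N := Z.K_pos.trans_le hK
    have hm1 : (a ++ G.take m).drop ((a ++ G.take m).length - m) ∈ U := h2.1.2.2.1
    have hlt : (G.take m).length = m := by rw [List.length_take]; omega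
    have hU : G.take m ∈ U := by
      rwa [← drop_sub_of_suffix (List.suffix_append a (G.take m)) (by omega), hlt, Nat.sub_self,
        List.drop_zero] at hm1
    have hev : Ev (Big U S m T) G := h3
    obtain ⟨c, hc⟩ : ∃ c, c = (zs M U m T (G1 ++ R.take m)).length := ⟨_, rfl⟩
    have hD : c + N ≤ (zs M U m T G).length := by
      obtain ⟨l1, l2, g0, n, o, e1, e2, -⟩ := cut_data M hm hT hN0 hG.symm hU h1 hev h4 hR
        (N - 1) (by omega)
      rw [e1, List.length_append, List.length_cons, e2, ← hc]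
      omega
    -- the value at the start of the block
    obtain ⟨v0, hv0⟩ : ∃ v0, v0 = (rn M U S m T Z (x, [], []) (u ++ a ++ G.take m)).1 := ⟨_, rfl⟩
    obtain ⟨κ, hκ, hcomp⟩ := Z.complete v0 (zs M U m T G)
    obtain ⟨t, ht, htκ⟩ := exists_residue (D := (zs M U m T G).length - 1 - c) hK hκ (by omega)
    obtain ⟨l1, l2, g0, n, o, e1, e2, e3, e4⟩ := cut_data M hm hT hN0 hG.symm hU h1 hev h4 hR t ht
    have hl2 : l2.length = (zs M U m T G).length - 1 - c - t := by
      rw [e1, List.length_append, List.length_cons, e2, ← hc]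
      omega
    obtain ⟨i, j, hij, hoi, hio, hLA, hRA⟩ := hcomp l1 g0 n l2 e1 (by rw [hl2]; exact htκ) o
      (by omega)
    obtain ⟨B, w, f1, f2, f3, f4, f5, f6, f7, f8, f9⟩ := e4 (i - o) (by omega)
    rw [show n - o - (i - o) = j by omega] at f6 f9
    rw [show o + (i - o) = i by omega] at f8
    have hBG : ∀ t, t ≤ B.length → B.take t = G.take t := fun t ht => by
      rw [f1, List.take_append_of_le_length ht]
    have hlw : 0 < w.length := List.length_pos_iff.2 f2
    have hlG : G.length = B.length + w.length := by rw [f1, List.length_append]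
    have hqG : ∀ t, t < G.length → ¬ Ev (Big U S m T) (G.take t) := by
      rintro t ht ⟨z, hz, hzB⟩
      refine h4 (G.take t) z (List.take_prefix _ _) ?_ hz hzB
      intro h5
      have := congrArg List.length h5
      rw [List.length_take] at this
      omega
    have HL : LQ M U S m T N Z v0 a B := by
      refine ⟨f3, f4, ?_, ?_, f5, ?_⟩
      · rw [hBG m f3]
        exact ⟨_, List.suffix_refl _, h2⟩
      · intro t ht1 ht2 h5
        rw [hBG t ht2] at h5
        have e5 : G.take t = G.take m ++ (G.take t).drop m := by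
          conv_lhs => rw [← List.take_append_drop m (G.take t)]
          rw [List.take_take, min_eq_left ht1.le]
        rw [e5, ev_ext big_gap (m := m) (by rwa [List.take_of_length_le hlt.le]) hlt.ge (by
          intro h6
          have := congrArg List.length h6
          rw [List.length_drop, List.length_take, List.length_nil] at this
          omega), ← e5] at h5
        exact hqG t (by omega) h5
      · rw [f7, f8]; exact hLA
    refine ⟨v0, a ++ B, w, by rw [f1, List.append_assoc], ⟨a, B, rfl, HL⟩,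
      ⟨w.length, j, ?_, le_rfl, ?_, ?_⟩, ?_⟩
    · rw [List.length_append] at hC; omega
    · rw [List.take_length]; exact f6
    · rw [List.take_length, f9]; exact hRA
    · have HL' := HL.left u
      obtain ⟨v, hv, hv'⟩ := block_run (Z := Z) (M := M) HL'.len HL'.ev HL'.quiet x
      have hv2 := hv' m le_rfl HL'.len
      rw [hBG m f3] at hv2
      have hv3 : v = v0 := by rw [hv0, hv2]
      unfold EE lam
      rw [← List.append_assoc, hv, HL.bf, ← hv3]
      rfl

end sys

/-- evaluation of linear actions -/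
theorem cls_rich (V : Type) [Finite V] [AddCommGroup V] : ∃ N : ℕ,
    ∀ (α : Type) [Finite α] (P : Set (List α) → Prop), Cls P →
    ∀ (M : α → V →+ V) (U S : Set (List α)) (m T : ℕ), 0 < m → (m = 1 ∨ N + m ≤ T) →
      ∀ (C : ℕ) (x : V) (F : Set V),
        P {w : List α | Dom {g | Rich U S m T N g} C w ∧ act M w x ∈ F} := by
  obtain ⟨Z⟩ := zoneSys V
  refine ⟨max Z.K Z.N, fun α _ P hP M U S m T hm hT C x F => ?_⟩
  have h1 := (sysT (M := M) (U := U) (S := S) hm hT (le_max_left Z.K Z.N)
    (le_max_right Z.K Z.N) C).cls_act hP M (fun w x => EE_act w x) C x F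
  have h2 : {w : List α | Dom {g | Rich U S m T (max Z.K Z.N) g} C w ∧ act M w x ∈ F} =
      {w : List α | Dom {g | Rich U S m T (max Z.K Z.N) g ∧ g.length ≤ C} C w ∧
        act M w x ∈ F} := by
    ext w
    have h3 : Dom {g | Rich U S m T (max Z.K Z.N) g} C w ↔
        Dom {g | Rich U S m T (max Z.K Z.N) g ∧ g.length ≤ C} C w := by
      constructor
      · intro h u hu hl
        obtain ⟨g, hg, hgu⟩ := h u hu hl
        exact ⟨g, ⟨hg, hl ▸ hgu.length_le⟩, hgu⟩
      · intro h u hu hl
        obtain ⟨g, hg, hgu⟩ := h u hu hl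
        exact ⟨g, hg.1, hgu⟩
    show _ ∧ _ ↔ _ ∧ _
    rw [h3]
  rw [h2]
  exact h1

/-- regular languages on texts with two kinds of marks -/
theorem regular_rich (n : ℕ) : ∃ N : ℕ, ∀ (α : Type) [Finite α]
    (P : Set (List α) → Prop), Cls P → ∀ (A : DFA α (Fin n))
    (U S : Set (List α)) (m T : ℕ), 0 < m → (m = 1 ∨ N + m ≤ T) → ∀ C : ℕ,
      P {w : List α | w ∈ A.accepts ∧ Dom {g | Rich U S m T N g} C w} := by
  obtain ⟨N, hN⟩ := cls_rich (Fin (Fintype.card (Fin n)) → ZMod 2)
  refine ⟨N, fun α _ P hP A U S m T hm hT C => ?_⟩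
  exact dfa_transfer (Q := {w | Dom {g | Rich U S m T N g} C w}) (P := P) A
    fun M x F => hN α P hP M U S m T hm hT C x F

end Vale.Agent.P329.TwoMarks
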