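import Vale.Agent.P329.H112.TwoMarks.Final

set_option linter.all false

/-!
Marks which are letters.
-/

namespace Vale.Agent.P329.TwoMarks

open Vale.Agent.P329 Vale.Agent.P329.Slow Vale.Agent.P329.Mark Vale.Agent.P329.Clock

section letters

variable {α : Type} {X Y : Set α} {N : ℕ}

/-- the marks -/
def LU (X Y : Set α) : Set (List α) := {z | ∃ a, (a ∈ X ∨ a ∈ Y) ∧ z = [a]}

/-- the words which end with a big mark -/
def LS (X : Set α) : Set (List α) := {z | ∃ p a, a ∈ X ∧ z = p ++ [a]}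

theorem gap_letters {a b : α} {z : List α} (ha : a ∈ X ∨ a ∈ Y) (hb : b ∈ X ∨ b ∈ Y)
    (hz : ∀ c ∈ z, c ∉ X ∧ c ∉ Y) : IsGap (LU X Y) 1 ([a] ++ (z ++ [b])) := by
  refine ⟨by simp, ⟨a, ha, by simp⟩, ⟨b, hb, ?_⟩, ?_⟩
  · rw [← List.append_assoc, List.length_append (bs := [b])]
    simp
  · intro i hi hi2 ⟨c, hc, hc2⟩
    obtain ⟨i, rfl⟩ : ∃ i', i = i' + 1 := ⟨i - 1, by omega⟩
    simp only [List.length_append, List.length_cons, List.length_nil] at hi2
    have h1 : i < z.length := by omega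
    rw [List.singleton_append, List.drop_succ_cons,
      List.drop_append_of_le_length (by omega)] at hc2
    have h2 : z.drop i = z[i] :: z.drop (i + 1) := List.drop_eq_getElem_cons h1
    rw [h2] at hc2
    simp only [List.cons_append, List.take_succ_cons, List.take_zero, List.cons.injEq,
      and_true] at hc2
    have h3 := hz z[i] (List.getElem_mem h1)
    rw [hc2] at h3
    rcases hc with hc | hc
    · exact h3.1 hc
    · exact h3.2 hc

theorem chain_letters (s : α) (hs : s ∈ Y) (l : List (List α × α))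
    (hl : ∀ p ∈ l, N ≤ p.1.length ∧ (∀ a ∈ p.1, a ∉ Y) ∧ p.2 ∈ Y)
    (hX : ∀ a ∈ s :: (l.map fun p => p.1 ++ [p.2]).flatten, a ∉ X) :
    Chain (LU X Y) (LS X) 1 0 N l.length (s :: (l.map fun p => p.1 ++ [p.2]).flatten) ∧
      ∃ a ∈ Y, [a] <:+ s :: (l.map fun p => p.1 ++ [p.2]).flatten := by
  induction l using List.reverseRecOn with
  | nil =>
    exact ⟨Chain.start [s] ⟨s, Or.inr hs, rfl⟩ rfl, s, hs, by simp⟩
  | append_singleton l p ih =>
    have e1 : s :: ((l ++ [p]).map fun p => p.1 ++ [p.2]).flatten =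
        (s :: (l.map fun p => p.1 ++ [p.2]).flatten) ++ (p.1 ++ [p.2]) := by simp
    rw [e1] at hX ⊢
    obtain ⟨h1, a, ha, h2⟩ := ih (fun q hq => hl q (by simp [hq]))
      (fun a ha => hX a (List.mem_append_left _ ha))
    obtain ⟨h3, h4, h5⟩ := hl p (by simp)
    refine ⟨?_, p.2, h5, ⟨(s :: (l.map fun p => p.1 ++ [p.2]).flatten) ++ p.1, by simp⟩⟩
    rw [List.length_append, List.length_singleton]
    refine Chain.long _ _ [a] _ h1 h2 rfl ?_ ?_ ?_
    · refine gap_letters (Or.inr ha) (Or.inr h5) fun c hc => ⟨?_, h4 c hc⟩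
      exact hX c (List.mem_append_right _ (List.mem_append_left _ hc))
    · rw [List.length_append, List.length_singleton]; omega
    · rintro q r y h6 h7 h8 ⟨p', b, hb, h9⟩
      have h10 : r ≠ [] := by
        rintro rfl
        have := congrArg List.length h6
        simp only [List.length_append, List.length_cons, List.length_nil] at this
        omega
      have h11 := congrArg List.getLast? h6
      have h12 := congrArg List.getLast? h9
      rw [List.getLast?_append_of_ne_nil _ h10] at h11 h12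
      rw [← h11, ← List.append_assoc, List.getLast?_concat, List.getLast?_concat] at h12
      have h13 : p.2 = b := Option.some.inj h12
      refine hX p.2 ?_ (h13 ▸ hb)
      exact List.mem_append_right _ (List.mem_append_right _ (by simp))

theorem end_letters {z : List α} {t : α} (h : IsGap (LU X Y) 1 z) {c : List α}
    (hz : z <:+ c ++ [t]) : ∃ a, z = a ++ [t] ∧ a <:+ c := by
  have h1 : z ≠ [] := by
    rintro rfl
    have := h.1
    simp at this
  rw [List.suffix_concat_iff] at hz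
  rcases hz with h2 | ⟨a, h2, h3⟩
  · exact absurd h2 h1
  · exact ⟨a, h2, h3⟩

theorem rich_letters {p g : List α} (hg : GoodBlock X Y N g)
    (hp : ∃ c ∈ p, c ∈ X ∨ c ∈ Y) :
    ∃ a, a <:+ p ∧ Rich (LU X Y) (LS X) 1 0 N (a ++ g) := by
  obtain ⟨t, x, t', rfl, ht, ht', hx, s, l, hs, hl, hl2, hR⟩ := hg
  obtain ⟨c, hc, hc2⟩ := hp
  obtain ⟨p1, p2, rfl⟩ := List.append_of_mem hc
  obtain ⟨z, hz, hzg⟩ := exists_gap (U := LU X Y) (m := 1) _ (c :: p2 ++ [t]) le_rfl
    (by simp) ⟨c, hc2, by simp⟩ ⟨t, Or.inl ht, by simp⟩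
  obtain ⟨a, rfl, ha⟩ := end_letters hzg hz
  obtain ⟨z', hz', hzg'⟩ := exists_gap (U := LU X Y) (m := 1) _ (t :: x ++ [t']) le_rfl
    (by simp) ⟨t, Or.inl ht, by simp⟩ ⟨t', Or.inl ht', by simp⟩
  refine ⟨a, ha.trans (List.suffix_append _ _), a, t :: (x ++ [t']), rfl, by simp, ?_, ?_, ?_, ?_⟩
  · refine ⟨?_, ?_, ⟨a, t, ht, ?_⟩⟩
    · simpa using hzg
    · simp
    · simp
  · obtain ⟨a', rfl, ha'⟩ := end_letters hzg' hz'
    refine ⟨_, ?_, hzg', by simp, ⟨a', t', ht', rfl⟩⟩
    simpa using hz'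
  · rintro c z hc hcne hzc ⟨hzg, -, q, b, hb, rfl⟩
    rw [← List.cons_append, List.prefix_concat_iff] at hc
    rcases hc with hc | hc
    · exact hcne hc
    · have h1 := hzg.1
      rw [List.length_append, List.length_singleton] at h1
      obtain ⟨r, rfl⟩ := hzc
      obtain ⟨r', hr'⟩ := hc
      have h2 : 0 < (r ++ q).length := by rw [List.length_append]; omega
      obtain ⟨d, e, hde⟩ : ∃ d e, r ++ q = d :: e := by
        cases h : r ++ q with
        | nil => rw [h] at h2; simp at h2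
        | cons d e => exact ⟨d, e, rfl⟩
      rw [← List.append_assoc, hde] at hr'
      simp only [List.cons_append, List.cons.injEq] at hr'
      exact hx b (by rw [← hr'.2]; simp) hb
  · refine ⟨s :: (l.map fun p => p.1 ++ [p.2]).flatten, ?_, ?_⟩
    · exact hR.trans ⟨[t], [t'], by simp⟩
    · have h1 := (chain_letters (N := N) (X := X) s hs l hl2
        (fun a ha => hx a (hR.subset ha))).1
      rwa [hl] at h1

theorem dom_letters {C : ℕ} {w : List α} (h : Dom {g | GoodBlock X Y N g} C w) :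
    Dom {g | Rich (LU X Y) (LS X) 1 0 N g} (C + C) w := by
  intro u hu hl
  have h1 : u.take C <:+: w := ((List.take_prefix _ _).isInfix).trans hu
  have h2 : u.drop C <:+: w := ((List.drop_suffix _ _).isInfix).trans hu
  obtain ⟨g1, hg1, hg1'⟩ := h _ h1 (by rw [List.length_take]; omega)
  obtain ⟨g2, hg2, q1, q2, hg2'⟩ := h _ h2 (by rw [List.length_drop]; omega)
  have h3 : ∃ c ∈ u.take C ++ q1, c ∈ X ∨ c ∈ Y := by
    obtain ⟨t, x, t', rfl, ht, -⟩ := hg1
    exact ⟨t, List.mem_append_left _ (hg1'.subset (by simp)), Or.inl ht⟩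
  obtain ⟨a, ⟨r, hr⟩, ha2⟩ := rich_letters hg2 h3
  refine ⟨a ++ g2, ha2, r, q2, ?_⟩
  calc r ++ (a ++ g2) ++ q2 = (r ++ a) ++ (g2 ++ q2) := by simp only [List.append_assoc]
    _ = u.take C ++ (q1 ++ g2 ++ q2) := by rw [hr]; simp only [List.append_assoc]
    _ = u := by rw [hg2', List.take_append_drop]

end letters

/-- regular languages on texts with two kinds of marks which are letters -/
theorem regular_letters (n : ℕ) : ∃ N : ℕ, ∀ (α : Type) [Finite α]
    (P : Set (List α) → Prop), Cls P → ∀ (A : DFA α (Fin n)) (X Y : Set α) (C : ℕ),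
      P {w : List α | w ∈ A.accepts ∧ Dom {g | GoodBlock X Y N g} C w} := by
  obtain ⟨N, hN⟩ := regular_rich n
  refine ⟨N, fun α _ P hP A X Y C => ?_⟩
  have h1 := hP.inter (hN α P hP A (LU X Y) (LS X) 1 0 one_pos (Or.inl rfl) (C + C))
    (Cls.dom hP {g | GoodBlock X Y N g} C)
  have h2 : {w : List α | w ∈ A.accepts ∧ Dom {g | GoodBlock X Y N g} C w} =
      {w : List α | w ∈ A.accepts ∧ Dom {g | Rich (LU X Y) (LS X) 1 0 N g} (C + C) w} ∩
        {w | Dom {g | GoodBlock X Y N g} C w} := by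
    ext w
    constructor
    · rintro ⟨h3, h4⟩
      exact ⟨⟨h3, dom_letters h4⟩, h4⟩
    · rintro ⟨⟨h3, -⟩, h4⟩
      exact ⟨h3, h4⟩
  rw [h2]
  exact h1

end Vale.Agent.P329.TwoMarks
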