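import Vale.Agent.P329.H112.TwoMarks.Zones
import Mathlib.Data.ZMod.QuotientRing
import Mathlib.Data.Nat.Prime.Infinite

set_option linter.all false

/-!
A function on a cyclic group which serves every need.
-/

namespace Vale.Agent.P329.TwoMarks

section select

open Classical in
/-- choose the coordinates such that the sum of the labels of the vanishing ones is `w0` -/
theorem select {W : Type} [AddCommGroup W] [Fintype W] {D : Type} [Fintype D]
    {L : ℕ} (hL : Fintype.card D ≤ L) {X : W × Fin L → Type}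
    (z : ∀ j, X j → D → Prop)
    (h0 : ∀ j, ∃ x, ∀ δ, ¬ z j x δ) (w0 : W)
    (h1 : ∀ l, (∃ x, ∀ δ, z (w0, l) x δ) ∨ ∀ δ, ∃ x, ∀ δ', z (w0, l) x δ' ↔ δ' = δ) :
    ∃ x : ∀ j, X j, ∀ δ, (∑ j, if z j (x j) δ then j.1 else 0) = w0 := by
  by_cases H : ∃ l x, ∀ δ, z (w0, l) x δ
  · obtain ⟨l0, x0, hx0⟩ := H
    refine ⟨Function.update (fun j => (h0 j).choose) (w0, l0) x0, fun δ => ?_⟩
    rw [Finset.sum_eq_single (w0, l0)]
    · rw [Function.update_self, if_pos (hx0 δ)]
    · intro j _ hj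
      rw [Function.update_of_ne hj, if_neg ((h0 j).choose_spec δ)]
    · intro h
      exact absurd (Finset.mem_univ _) h
  · push Not at H
    have h2 : ∀ l δ, ∃ x, ∀ δ', z (w0, l) x δ' ↔ δ' = δ := by
      intro l
      rcases h1 l with ⟨x, hx⟩ | h
      · obtain ⟨δ, hδ⟩ := H l x
        exact absurd (hx δ) hδ
      · exact h
    obtain ⟨φ⟩ : Nonempty (D ↪ Fin L) := Function.Embedding.nonempty_of_card_le (by simpa using hL)
    have h3 : ∀ j, ∃ x : X j, ∀ δ, z j x δ ↔ j = (w0, φ δ) := by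
      intro j
      by_cases hj : ∃ δ, j = (w0, φ δ)
      · obtain ⟨δ, rfl⟩ := hj
        obtain ⟨x, hx⟩ := h2 (φ δ) δ
        refine ⟨x, fun δ' => ?_⟩
        rw [hx δ']
        constructor
        · rintro rfl; rfl
        · intro h
          exact (φ.injective (Prod.ext_iff.1 h).2).symm
      · obtain ⟨x, hx⟩ := h0 j
        refine ⟨x, fun δ => ⟨fun h => absurd h (hx δ), fun h => absurd ⟨δ, h⟩ hj⟩⟩
    choose x hx using h3
    refine ⟨x, fun δ => ?_⟩
    rw [Finset.sum_eq_single (w0, φ δ)]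
    · rw [if_pos ((hx _ δ).2 rfl)]
    · intro j _ hj
      rw [if_neg fun h => hj ((hx j δ).1 h)]
    · intro h
      exact absurd (Finset.mem_univ _) h

/-- different primes above a bound, one for each index -/
theorem exists_primes {ι : Type} [Fintype ι] (B : ℕ) :
    ∃ p : ι → ℕ, Function.Injective p ∧ ∀ j, (p j).Prime ∧ B < p j := by
  have hinf : {p : ℕ | p.Prime ∧ B < p}.Infinite := by
    have h1 : ({p : ℕ | p.Prime} \ {p : ℕ | p ≤ B}).Infinite :=
      Nat.infinite_setOf_prime.diff (Set.finite_le_nat B)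
    refine h1.mono ?_
    rintro p ⟨h2, h3⟩
    exact ⟨h2, not_le.1 h3⟩
  let f := hinf.natEmbedding
  refine ⟨fun j => f (Fintype.equivFin ι j), fun j j' h => ?_, fun j => (f _).2⟩
  have h2 := f.injective (Subtype.ext h)
  exact (Fintype.equivFin ι).injective (Fin.ext h2)

theorem intCast_ne_zero {p : ℕ} {d : ℤ} (h0 : d ≠ 0) (h : d.natAbs < p) : (d : ZMod p) ≠ 0 := by
  intro h1
  rw [ZMod.intCast_zmod_eq_zero_iff_dvd] at h1
  have h2 := Int.natAbs_dvd_natAbs.2 h1
  rw [Int.natAbs_natCast] at h2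
  exact absurd (Nat.le_of_dvd (Int.natAbs_pos.2 h0) h2) (by omega)

section coord

variable {p : ℕ} [Fact p.Prime] {B : ℕ} (hp : 2 * B + 3 < p) {D : Finset ℤ}
  (hB : ∀ d ∈ D, d.natAbs ≤ B)

include hp hB

theorem sub_ne {d d' : ℤ} (hd : d ∈ D) (hd' : d' ∈ D) (h : d ≠ d') :
    ((d - d' : ℤ) : ZMod p) ≠ 0 := by
  have h1 := hB d hd
  have h2 := hB d' hd'
  exact intCast_ne_zero (sub_ne_zero.2 h) (by omega)

theorem coordA0 (h0 : (0 : ℤ) ∉ D) (s : ZMod p) :
    ∃ x : ZMod p, ∀ d ∈ D, ¬ s + x * (d : ZMod p) = 0 := by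
  classical
  by_cases h : s = 0
  · refine ⟨1, fun d hd => ?_⟩
    rw [h, zero_add, one_mul]
    have h1 := hB d hd
    exact intCast_ne_zero (fun h2 => h0 (h2 ▸ hd)) (by omega)
  · exact ⟨0, fun d _ => by rw [zero_mul, add_zero]; exact h⟩

theorem coordA1 (h0 : (0 : ℤ) ∉ D) (s : ZMod p) :
    (∃ x : ZMod p, ∀ d ∈ D, s + x * (d : ZMod p) = 0) ∨
      ∀ d ∈ D, ∃ x : ZMod p, ∀ d' ∈ D, s + x * (d' : ZMod p) = 0 ↔ d' = d := by
  by_cases h : s = 0
  · left
    exact ⟨0, fun d _ => by rw [h, zero_mul, add_zero]⟩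
  · right
    intro d hd
    have hd0 : ((d : ℤ) : ZMod p) ≠ 0 := by
      have h1 := hB d hd
      exact intCast_ne_zero (fun h2 => h0 (h2 ▸ hd)) (by omega)
    have e1 : ∀ d' : ℤ, s + (- s / (d : ZMod p)) * (d' : ZMod p) =
        s / (d : ZMod p) * ((d - d' : ℤ) : ZMod p) := by
      intro d'
      rw [Int.cast_sub]
      field_simp
      ring
    refine ⟨- s / (d : ZMod p), fun d' hd' => ?_⟩
    rw [e1]
    constructor
    · intro h3
      by_contra hne
      exact sub_ne hp hB hd hd' (Ne.symm hne)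
        ((mul_eq_zero.1 h3).resolve_left (div_ne_zero h hd0))
    · rintro rfl
      rw [sub_self, Int.cast_zero, mul_zero]

theorem coordB0 (h : ZMod p) : ∃ x : ZMod p, ∀ d ∈ D, ¬ x + h * (d : ZMod p) = 0 := by
  by_cases h2 : h = 0
  · refine ⟨1, fun d _ => ?_⟩
    rw [h2, zero_mul, add_zero]
    exact one_ne_zero
  · refine ⟨- (h * (((B + 1 : ℕ) : ℤ) : ZMod p)), fun d hd h3 => ?_⟩
    have h4 : h * (((d - ((B + 1 : ℕ) : ℤ)) : ℤ) : ZMod p) = 0 := by
      rw [Int.cast_sub]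
      linear_combination h3
    have hb := hB d hd
    refine intCast_ne_zero (p := p) (d := d - ((B + 1 : ℕ) : ℤ)) ?_ ?_
      ((mul_eq_zero.1 h4).resolve_left h2)
    · omega
    · omega

theorem coordB1 (h : ZMod p) :
    (∃ x : ZMod p, ∀ d ∈ D, x + h * (d : ZMod p) = 0) ∨
      ∀ d ∈ D, ∃ x : ZMod p, ∀ d' ∈ D, x + h * (d' : ZMod p) = 0 ↔ d' = d := by
  by_cases h2 : h = 0
  · left
    exact ⟨0, fun d _ => by rw [h2, zero_mul, add_zero]⟩
  · right
    intro d hd
    refine ⟨- (h * (d : ZMod p)), fun d' hd' => ?_⟩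
    have e1 : - (h * (d : ZMod p)) + h * (d' : ZMod p) = h * ((d' - d : ℤ) : ZMod p) := by
      rw [Int.cast_sub]
      ring
    rw [e1]
    constructor
    · intro h3
      by_contra hne
      exact sub_ne hp hB hd' hd hne ((mul_eq_zero.1 h3).resolve_left h2)
    · rintro rfl
      rw [sub_self, Int.cast_zero, mul_zero]

end coord

open Classical in
/-- the sum of the labels of the vanishing coordinates -/
noncomputable def gm {W : Type} [AddCommGroup W] [Fintype W] {L : ℕ} (p : W × Fin L → ℕ)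
    (s : ∀ j, ZMod (p j)) : W := ∑ j, if s j = 0 then j.1 else 0

theorem gm_A {W : Type} [AddCommGroup W] [Fintype W] {L : ℕ} {p : W × Fin L → ℕ}
    (hpr : ∀ j, (p j).Prime) {B : ℕ} (hp : ∀ j, 2 * B + 3 < p j) {D : Finset ℤ}
    (hB : ∀ d ∈ D, d.natAbs ≤ B) (h0 : (0 : ℤ) ∉ D) (hL : D.card ≤ L)
    (s : ∀ j, ZMod (p j)) (w : W) :
    ∃ x : ∀ j, ZMod (p j), ∀ d ∈ D, gm p (s + x * ((d : ℤ) : ∀ j, ZMod (p j))) = w := by
  classical
  obtain ⟨x, hx⟩ := select (W := W) (D := {d // d ∈ D}) (L := L)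
    (by rw [Fintype.card_coe]; exact hL)
    (X := fun j => ZMod (p j)) (fun j x d => s j + x * ((d : ℤ) : ZMod (p j)) = 0)
    (fun j => by
      haveI : Fact (p j).Prime := ⟨hpr j⟩
      obtain ⟨x, hx⟩ := coordA0 (hp j) hB h0 (s j)
      exact ⟨x, fun d => hx d d.2⟩) w
    (fun l => by
      haveI : Fact (p (w, l)).Prime := ⟨hpr _⟩
      rcases coordA1 (hp (w, l)) hB h0 (s (w, l)) with ⟨x, hx⟩ | h
      · exact Or.inl ⟨x, fun d => hx d d.2⟩
      · right
        intro d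
        obtain ⟨x, hx⟩ := h d d.2
        exact ⟨x, fun d' => (hx d' d'.2).trans Subtype.ext_iff.symm⟩)
  refine ⟨x, fun d hd => ?_⟩
  rw [← hx ⟨d, hd⟩]
  unfold gm
  refine Finset.sum_congr rfl fun j _ => ?_
  have h2 : (s + x * ((d : ℤ) : ∀ j, ZMod (p j))) j = s j + x j * ((d : ℤ) : ZMod (p j)) := rfl
  by_cases hc : s j + x j * ((d : ℤ) : ZMod (p j)) = 0
  · rw [if_pos (h2.trans hc), if_pos hc]
  · rw [if_neg fun h3 => hc (h2.symm.trans h3), if_neg hc]

theorem gm_B {W : Type} [AddCommGroup W] [Fintype W] {L : ℕ} {p : W × Fin L → ℕ}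
    (hpr : ∀ j, (p j).Prime) {B : ℕ} (hp : ∀ j, 2 * B + 3 < p j) {D : Finset ℤ}
    (hB : ∀ d ∈ D, d.natAbs ≤ B) (hL : D.card ≤ L)
    (h : ∀ j, ZMod (p j)) (w : W) :
    ∃ x : ∀ j, ZMod (p j), ∀ d ∈ D, gm p (x + h * ((d : ℤ) : ∀ j, ZMod (p j))) = w := by
  classical
  obtain ⟨x, hx⟩ := select (W := W) (D := {d // d ∈ D}) (L := L)
    (by rw [Fintype.card_coe]; exact hL)
    (X := fun j => ZMod (p j)) (fun j x d => x + h j * ((d : ℤ) : ZMod (p j)) = 0)
    (fun j => by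
      haveI : Fact (p j).Prime := ⟨hpr j⟩
      obtain ⟨x, hx⟩ := coordB0 (hp j) hB (h j)
      exact ⟨x, fun d => hx d d.2⟩) w
    (fun l => by
      haveI : Fact (p (w, l)).Prime := ⟨hpr _⟩
      rcases coordB1 (hp (w, l)) hB (h (w, l)) with ⟨x, hx⟩ | h'
      · exact Or.inl ⟨x, fun d => hx d d.2⟩
      · right
        intro d
        obtain ⟨x, hx⟩ := h' d d.2
        exact ⟨x, fun d' => (hx d' d'.2).trans Subtype.ext_iff.symm⟩)
  refine ⟨x, fun d hd => ?_⟩
  rw [← hx ⟨d, hd⟩]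
  unfold gm
  refine Finset.sum_congr rfl fun j _ => ?_
  have h2 : (x + h * ((d : ℤ) : ∀ j, ZMod (p j))) j = x j + h j * ((d : ℤ) : ZMod (p j)) := rfl
  by_cases hc : x j + h j * ((d : ℤ) : ZMod (p j)) = 0
  · rw [if_pos (h2.trans hc), if_pos hc]
  · rw [if_neg fun h3 => hc (h2.symm.trans h3), if_neg hc]

/-- a function which takes every value on every shifted and stretched copy of a finite set -/
theorem universal (V : Type) [Finite V] [AddCommGroup V] (Δ Δ' : Finset ℤ) (h0 : (0 : ℤ) ∉ Δ) :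
    ∃ M, 0 < M ∧ ∃ gam : ZMod M → V × V,
      (∀ s w, ∃ h, ∀ d ∈ Δ, gam (s + h * (d : ZMod M)) = w) ∧
      (∀ h w, ∃ t, ∀ d ∈ Δ', gam (t + h * (d : ZMod M)) = w) := by
  classical
  have hfV : Fintype V := Fintype.ofFinite V
  obtain ⟨B, hB⟩ : ∃ B : ℕ, ∀ d ∈ Δ ∪ Δ', d.natAbs ≤ B :=
    ⟨(Δ ∪ Δ').sup Int.natAbs, fun d hd => Finset.le_sup (f := Int.natAbs) hd⟩
  obtain ⟨p, hp, hpp⟩ := exists_primes (ι := (V × V) × Fin (Δ.card + Δ'.card)) (2 * B + 3)
  have hco : Pairwise (Function.onFun Nat.Coprime p) := fun i j hij =>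
    (Nat.coprime_primes (hpp i).1 (hpp j).1).2 fun h => hij (hp h)
  obtain ⟨e⟩ : Nonempty (ZMod (∏ j, p j) ≃+* ∀ j, ZMod (p j)) := ⟨ZMod.prodEquivPi p hco⟩
  refine ⟨∏ j, p j, Finset.prod_pos fun j _ => (hpp j).1.pos, fun s => gm p (e s), ?_, ?_⟩
  · intro s w
    obtain ⟨x, hx⟩ := gm_A (fun j => (hpp j).1) (fun j => (hpp j).2)
      (fun d hd => hB d (Finset.mem_union_left _ hd)) h0 (Nat.le_add_right _ _) (e s) w
    refine ⟨e.symm x, fun d hd => ?_⟩
    show gm p (e (s + e.symm x * (d : ZMod (∏ j, p j)))) = w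
    rw [← hx d hd, map_add, map_mul, RingEquiv.apply_symm_apply, map_intCast]
  · intro h w
    obtain ⟨x, hx⟩ := gm_B (fun j => (hpp j).1) (fun j => (hpp j).2)
      (fun d hd => hB d (Finset.mem_union_right _ hd)) (Nat.le_add_left _ _) (e h) w
    refine ⟨e.symm x, fun d hd => ?_⟩
    show gm p (e (e.symm x + h * (d : ZMod (∏ j, p j)))) = w
    rw [← hx d hd, map_add, map_mul, RingEquiv.apply_symm_apply, map_intCast]

end select

section needs

theorem needs (V : Type) [Finite V] [AddCommGroup V] : NeedsStmt V := by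
  classical
  have hfH : Finite (V →+ V) := Finite.of_injective (fun f : V →+ V => (f : V → V))
    DFunLike.coe_injective
  have hfH' : Fintype (V →+ V) := Fintype.ofFinite _
  set n := Fintype.card (V →+ V) with hn
  let c0 : (V →+ V) → ℤ := fun g => ((Fintype.equivFin (V →+ V) g : ℕ) : ℤ)
  let e0 : (V →+ V) × (V →+ V) → ℤ := fun g =>
    ((Fintype.equivFin ((V →+ V) × (V →+ V)) g : ℕ) : ℤ)
  let i0 : (V →+ V) → (V →+ V) → ℤ := fun A g => 2 * n * e0 (A, g)
  have hc0 : ∀ g, 0 ≤ c0 g ∧ c0 g < n := fun g =>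
    ⟨Int.natCast_nonneg _, Int.ofNat_lt.2 (Fintype.equivFin (V →+ V) g).2⟩
  have hc0i : ∀ g g', c0 g = c0 g' → g = g' := fun g g' h =>
    (Fintype.equivFin (V →+ V)).injective (Fin.ext (Int.ofNat_inj.1 h))
  have he0i : ∀ g g', e0 g = e0 g' → g = g' := fun g g' h =>
    (Fintype.equivFin ((V →+ V) × (V →+ V))).injective (Fin.ext (Int.ofNat_inj.1 h))
  -- the differences
  let T := (V →+ V) × (V →+ V) × (V →+ V) × (V →+ V) × (V →+ V)
  let d1 : T → ℤ := fun t => (i0 t.1 t.2.1 - i0 t.2.2.1 t.2.2.2.1) + (c0 t.2.2.2.2 - c0 t.2.2.2.1)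
  let d2 : T → ℤ := fun t => (c0 t.2.2.2.2 - c0 t.2.2.2.1) - i0 t.2.2.1 t.2.2.2.1
  obtain ⟨M, hM, gam, hA, hB⟩ := universal V ((Finset.univ.image d1).erase 0)
    (Finset.univ.image d2) (Finset.notMem_erase _ _)
  refine ⟨M, hM, fun s => (gam s).1, fun s => (gam s).2, fun s0 x0 y0 => ?_⟩
  set v0 := (gam s0).2 + x0 (y0 - (gam s0).1) with hv0
  obtain ⟨h, hh⟩ := hA s0 (y0, v0)
  choose a ha using fun y => hB h (y, v0)
  refine ⟨fun g => h * (c0 g : ZMod M),
    fun y A => if y = y0 then {i | ∃ g, i = h * (i0 A g : ZMod M)} else {a y - s0},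
    fun B => {j | ∃ g A, B.comp (g.comp A) = x0 ∧
      j = s0 - h * (c0 g : ZMod M) - h * (i0 A g : ZMod M)}, ?_, ?_, ?_⟩
  · intro y A
    dsimp only
    split_ifs
    · exact ⟨_, 0, rfl⟩
    · exact ⟨_, rfl⟩
  · rintro y A g B i hi j ⟨g', A', hx, rfl⟩
    dsimp only at hi ⊢
    split_ifs at hi with hy
    · obtain ⟨g1, rfl⟩ := hi
      subst hy
      have e1 : h * (i0 A g1 : ZMod M) + h * (c0 g : ZMod M) +
          (s0 - h * (c0 g' : ZMod M) - h * (i0 A' g' : ZMod M)) =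
          s0 + h * ((d1 (A, g1, A', g', g) : ℤ) : ZMod M) := by
        show _ = s0 + h * (((i0 A g1 - i0 A' g') + (c0 g - c0 g') : ℤ) : ZMod M)
        push_cast
        ring
      rw [e1]
      by_cases hd : d1 (A, g1, A', g', g) = 0
      · -- all data agree
        have h3 : i0 A g1 - i0 A' g' + (c0 g - c0 g') = 0 := hd
        have h4 := hc0 g
        have h5 := hc0 g'
        have h6 : e0 (A, g1) = e0 (A', g') := by
          have h7 : (2 * n : ℤ) * (e0 (A, g1) - e0 (A', g')) = c0 g' - c0 g := by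
            have : (2 * n : ℤ) * e0 (A, g1) - 2 * n * e0 (A', g') + (c0 g - c0 g') = 0 := h3
            linear_combination this
          by_contra hne
          have h8 : 1 ≤ |e0 (A, g1) - e0 (A', g')| := Int.one_le_abs (sub_ne_zero.2 hne)
          have h9 : |(2 * n : ℤ) * (e0 (A, g1) - e0 (A', g'))| < n := by
            rw [h7, abs_lt]; constructor <;> omega
          rw [abs_mul, abs_of_nonneg (by positivity : (0 : ℤ) ≤ 2 * n)] at h9
          have h10 : (0 : ℤ) ≤ n := Int.natCast_nonneg _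
          nlinarith
        have h11 := he0i _ _ h6
        obtain ⟨rfl, rfl⟩ := Prod.ext_iff.1 h11
        dsimp only at hx h3
        have h12 : g = g1 := hc0i _ _ (by omega)
        subst h12
        rw [hd, Int.cast_zero, mul_zero, add_zero, hx]
      · have h3 := hh (d1 (A, g1, A', g', g)) (Finset.mem_erase.2 ⟨hd,
          Finset.mem_image_of_mem _ (Finset.mem_univ _)⟩)
        rw [h3]
        dsimp only
        rw [sub_self, map_zero, add_zero]
    · have hi' : i = a y - s0 := hi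
      have e1 : i + h * (c0 g : ZMod M) +
          (s0 - h * (c0 g' : ZMod M) - h * (i0 A' g' : ZMod M)) =
          a y + h * ((d2 (0, 0, A', g', g) : ℤ) : ZMod M) := by
        show _ = a y + h * (((c0 g - c0 g') - i0 A' g' : ℤ) : ZMod M)
        rw [hi']
        push_cast
        ring
      rw [e1, ha y _ (Finset.mem_image_of_mem _ (Finset.mem_univ _))]
      dsimp only
      rw [sub_self, map_zero, add_zero]
  · intro A g B hx
    refine ⟨h * (i0 A g : ZMod M), ?_, s0 - h * (c0 g : ZMod M) - h * (i0 A g : ZMod M),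
      ⟨g, A, hx, rfl⟩, by ring⟩
    dsimp only
    rw [if_pos rfl]
    exact ⟨g, rfl⟩

/-- the zone system -/
theorem zoneSys (V : Type) [Finite V] [AddCommGroup V] : Nonempty (ZoneSys V) :=
  exists_zoneSys V (needs V)

end needs

end Vale.Agent.P329.TwoMarks
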