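import Vale.Agent.P329.H112.TwoMarks.Defs
import Vale.Agent.P329.H112.TwoMarks.Needs
import Vale.Agent.P329.Mark.Core

set_option linter.all false

/-!
The machine which jumps at the big marks, and the decomposition of a block into zones.
-/

namespace Vale.Agent.P329.TwoMarks

open Vale.Agent.P329 Vale.Agent.P329.Slow Vale.Agent.P329.Mark

section lists

variable {α : Type}

theorem drop_sub_of_suffix {b g : List α} {m : ℕ} (h : b <:+ g) (hm : m ≤ b.length) :
    b.drop (b.length - m) = g.drop (g.length - m) := by
  obtain ⟨t, rfl⟩ := h
  have h1 : (t ++ b).length - m = t.length + (b.length - m) := by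
    rw [List.length_append]; omega
  rw [h1, ← List.drop_drop, List.drop_left]

theorem take_of_prefix {b g : List α} {m : ℕ} (h : b <+: g) (hm : m ≤ b.length) :
    g.take m = b.take m := by
  obtain ⟨t, rfl⟩ := h
  rw [List.take_append_of_le_length hm]

/-- `w` ends with a word which satisfies `Q` -/
def Ev (Q : List α → Prop) (w : List α) : Prop := ∃ z, z <:+ w ∧ Q z

theorem Ev.left {Q : List α → Prop} {w : List α} (h : Ev Q w) (u : List α) : Ev Q (u ++ w) := by
  obtain ⟨z, hz, hq⟩ := h
  exact ⟨z, hz.trans (List.suffix_append _ _), hq⟩

/-- gap words with a gap at least `T` -/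
def Lg (U : Set (List α)) (m T : ℕ) (z : List α) : Prop := IsGap U m z ∧ T + m ≤ z.length

theorem Big.lg {U S : Set (List α)} {m T : ℕ} {z : List α} (h : Big U S m T z) : Lg U m T z :=
  ⟨h.1, h.2.1⟩

variable {U S : Set (List α)} {m T : ℕ}

theorem gap_suffix {z h W y : List α} (hz : IsGap U m z) (hs : z <:+ h ++ (W ++ y))
    (hW : W.take m ∈ U) (hm : m ≤ W.length) (hy : y ≠ []) : z <:+ W ++ y := by
  by_contra hn
  have h1 : (W ++ y).length < z.length := by
    by_contra h2
    exact hn (List.suffix_of_suffix_length_le hs (List.suffix_append _ _) (by omega))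
  obtain ⟨p, hp⟩ := List.suffix_of_suffix_length_le (List.suffix_append h (W ++ y)) hs h1.le
  have h3 : 0 < y.length := List.length_pos_iff.2 hy
  have h4 : z.length = p.length + (W ++ y).length := by rw [← hp, List.length_append]
  rw [List.length_append] at h4 h1
  refine hz.2.2.2 p.length (by omega) (by omega) ?_
  rw [← hp, List.drop_left, List.take_append_of_le_length hm]
  exact hW

theorem ev_ext {Q : List α → Prop} (hQ : ∀ z, Q z → IsGap U m z) {h W y : List α}
    (hW : W.take m ∈ U) (hm : m ≤ W.length) (hy : y ≠ []) :
    Ev Q (h ++ (W ++ y)) ↔ Ev Q (W ++ y) := by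
  constructor
  · rintro ⟨z, hz, hq⟩
    exact ⟨z, gap_suffix (hQ z hq) hz hW hm hy, hq⟩
  · intro h1
    exact h1.left h

theorem Ev.length {Q : List α → Prop} (hQ : ∀ z, Q z → IsGap U m z) {w : List α} (h : Ev Q w) :
    m < w.length := by
  obtain ⟨z, hz, hq⟩ := h
  exact lt_of_lt_of_le (hQ z hq).1 hz.length_le

/-- the last window of a word which ends with a gap word is a mark -/
theorem Ev.mark {Q : List α → Prop} (hQ : ∀ z, Q z → IsGap U m z) {w : List α} (h : Ev Q w) :
    w.drop (w.length - m) ∈ U := by
  obtain ⟨z, hz, hq⟩ := h
  rw [← drop_sub_of_suffix hz (hQ z hq).1.le]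
  exact (hQ z hq).2.2.1

/-- two gap words which end at the same place are equal -/
theorem gap_unique {z z' w : List α} (h : IsGap U m z) (h' : IsGap U m z') (hz : z <:+ w)
    (hz' : z' <:+ w) : z = z' := by
  rcases le_total z.length z'.length with hl | hl
  · have h1 := List.suffix_of_suffix_length_le hz hz' hl
    obtain ⟨p, hp⟩ := h1
    by_contra hne
    have hp0 : 0 < p.length := by
      rcases Nat.eq_zero_or_pos p.length with h0 | h0
      · rw [List.eq_nil_of_length_eq_zero h0, List.nil_append] at hp
        exact absurd hp hne
      · exact h0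
    refine h'.2.2.2 p.length hp0 ?_ ?_
    · rw [← hp, List.length_append]
      have := h.1
      omega
    · rw [← hp, List.drop_left]
      exact h.2.1
  · have h1 := List.suffix_of_suffix_length_le hz' hz hl
    obtain ⟨p, hp⟩ := h1
    by_contra hne
    have hp0 : 0 < p.length := by
      rcases Nat.eq_zero_or_pos p.length with h0 | h0
      · rw [List.eq_nil_of_length_eq_zero h0, List.nil_append] at hp
        exact absurd hp.symm hne
      · exact h0
    refine h.2.2.2 p.length hp0 ?_ ?_
    · rw [← hp, List.length_append]
      have := h'.1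
      omega
    · rw [← hp, List.drop_left]
      exact h'.2.1

end lists

section machine

variable {α V : Type} [AddCommGroup V] (M : α → V →+ V) (m : ℕ) (P : List α → Prop)
  (τ : List α → V)

open Classical in
/-- one step of the machine: value, current block, history -/
noncomputable def step (s : V × List α × List α) (a : α) : V × List α × List α :=
  if P (s.2.2 ++ [a]) then
    (act M ((s.2.1 ++ [a]).take ((s.2.1 ++ [a]).length - m)) s.1 + τ (s.2.1 ++ [a]),
      (s.2.1 ++ [a]).drop ((s.2.1 ++ [a]).length - m), s.2.2 ++ [a])
  else (s.1, s.2.1 ++ [a], s.2.2 ++ [a])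

noncomputable def run (s : V × List α × List α) (w : List α) : V × List α × List α :=
  w.foldl (step M m P τ) s

/-- the current value -/
def vl (s : V × List α × List α) : V := act M s.2.1 s.1

variable {M m P τ}

theorem run_nil (s : V × List α × List α) : run M m P τ s [] = s := rfl

theorem run_cons (s : V × List α × List α) (a : α) (w : List α) :
    run M m P τ s (a :: w) = run M m P τ (step M m P τ s a) w := rfl

theorem run_append (s : V × List α × List α) (w w' : List α) :
    run M m P τ s (w ++ w') = run M m P τ (run M m P τ s w) w' := List.foldl_append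

theorem run_single (s : V × List α × List α) (a : α) :
    run M m P τ s [a] = step M m P τ s a := rfl

theorem step_hist (s : V × List α × List α) (a : α) : (step M m P τ s a).2.2 = s.2.2 ++ [a] := by
  unfold step
  split_ifs <;> rfl

theorem run_hist (s : V × List α × List α) (w : List α) :
    (run M m P τ s w).2.2 = s.2.2 ++ w := by
  induction w generalizing s with
  | nil => rw [run_nil, List.append_nil]
  | cons a w ih => rw [run_cons, ih, step_hist, List.append_assoc]; rfl

theorem run_quiet {v : V} {B H w : List α}
    (h : ∀ t, 0 < t → t ≤ w.length → ¬ P (H ++ w.take t)) :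
    run M m P τ (v, B, H) w = (v, B ++ w, H ++ w) := by
  induction w using List.reverseRecOn with
  | nil => rw [run_nil, List.append_nil, List.append_nil]
  | append_singleton w a ih =>
    rw [run_append, ih, run_single]
    · unfold step
      dsimp only
      rw [if_neg, List.append_assoc, List.append_assoc]
      have h1 := h (w ++ [a]).length (by simp) le_rfl
      rwa [List.take_length, ← List.append_assoc] at h1
    · intro t h1 h2
      have h3 := h t h1 (by rw [List.length_append]; omega)
      rwa [List.take_append_of_le_length h2] at h3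

theorem run_event {v : V} {B H w : List α} (hw : w ≠ [])
    (h : ∀ t, 0 < t → t < w.length → ¬ P (H ++ w.take t)) (he : P (H ++ w)) :
    run M m P τ (v, B, H) w = (act M ((B ++ w).take ((B ++ w).length - m)) v + τ (B ++ w),
      (B ++ w).drop ((B ++ w).length - m), H ++ w) := by
  obtain ⟨w', a, rfl⟩ : ∃ w' a, w = w' ++ [a] :=
    ⟨w.dropLast, w.getLast hw, (List.dropLast_append_getLast hw).symm⟩
  have hq : run M m P τ (v, B, H) w' = (v, B ++ w', H ++ w') := by
    refine run_quiet fun t h1 h2 => ?_
    have h3 := h t h1 (by rw [List.length_append]; simp; omega)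
    rwa [List.take_append_of_le_length h2] at h3
  rw [run_append, hq, run_single]
  unfold step
  dsimp only
  rw [← List.append_assoc] at he
  rw [if_pos he, List.append_assoc, List.append_assoc]

theorem run_linear (w : List α) : ∀ (v v' : V) (B H : List α),
    (run M m P τ (v, B, H) w).2 = (run M m P τ (v', B, H) w).2 ∧
      vl M (run M m P τ (v, B, H) w) - vl M (run M m P τ (v', B, H) w) =
        act M w (vl M (v, B, H) - vl M (v', B, H)) := by
  induction w with
  | nil => intro v v' B H; exact ⟨rfl, rfl⟩
  | cons a w ih =>
    intro v v' B H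
    rw [run_cons, run_cons]
    unfold step
    dsimp only
    by_cases h : P (H ++ [a])
    · rw [if_pos h, if_pos h]
      refine ⟨(ih _ _ _ _).1, ?_⟩
      rw [(ih _ _ _ _).2]
      show act M w _ = act M ([a] ++ w) _
      rw [act_append]
      congr 1
      unfold vl
      dsimp only
      rw [act_add, act_add, add_sub_add_right_eq_sub, ← act_append, ← act_append,
        List.take_append_drop, act_append, act_append, act_sub]
    · rw [if_neg h, if_neg h]
      refine ⟨(ih _ _ _ _).1, ?_⟩
      rw [(ih _ _ _ _).2]
      show act M w _ = act M ([a] ++ w) _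
      rw [act_append]
      congr 1
      unfold vl
      dsimp only
      rw [act_append, act_append, act_sub]

theorem run_congr (w : List α) : ∀ (v : V) (B H H' : List α),
    (∀ t, 0 < t → t ≤ w.length → (P (H ++ w.take t) ↔ P (H' ++ w.take t))) →
      (run M m P τ (v, B, H) w).1 = (run M m P τ (v, B, H') w).1 ∧
      (run M m P τ (v, B, H) w).2.1 = (run M m P τ (v, B, H') w).2.1 := by
  induction w with
  | nil => intro v B H H' _; exact ⟨rfl, rfl⟩
  | cons a w ih =>
    intro v B H H' h
    rw [run_cons, run_cons]
    unfold step
    dsimp only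
    have h1 : P (H ++ [a]) ↔ P (H' ++ [a]) := by
      have := h 1 one_pos (by simp)
      simpa using this
    have h2 : ∀ t, 0 < t → t ≤ w.length →
        (P (H ++ [a] ++ w.take t) ↔ P (H' ++ [a] ++ w.take t)) := by
      intro t h3 h4
      have := h (t + 1) (Nat.succ_pos t) (by simp; omega)
      rw [List.take_succ_cons] at this
      simpa using this
    by_cases h3 : P (H ++ [a])
    · rw [if_pos h3, if_pos (h1.1 h3)]
      exact ih _ _ _ _ h2
    · rw [if_neg h3, if_neg fun h4 => h3 (h1.2 h4)]
      exact ih _ _ _ _ h2

theorem vl_congr {s s' : V × List α × List α} (h : s.1 = s'.1) (h' : s.2.1 = s'.2.1) :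
    vl M s = vl M s' := by
  unfold vl
  rw [h, h']

theorem run_buf (x : V) (w : List α) : (run M m P τ (x, [], []) w).2.1 <:+ w ∧
    ((run M m P τ (x, [], []) w).2.1 = w ∨ m ≤ (run M m P τ (x, [], []) w).2.1.length) := by
  induction w using List.reverseRecOn with
  | nil => exact ⟨List.suffix_refl _, Or.inl rfl⟩
  | append_singleton w a ih =>
    obtain ⟨h1, h2⟩ := ih
    have h0 := run_hist (M := M) (m := m) (P := P) (τ := τ) (x, [], []) w
    rw [run_append, run_single]
    generalize run M m P τ (x, [], []) w = s at h1 h2 h0
    obtain ⟨v, B, H⟩ := s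
    dsimp only at h1 h2 h0
    have h3 : B ++ [a] <:+ w ++ [a] := by
      obtain ⟨t, rfl⟩ := h1
      exact ⟨t, by simp⟩
    unfold step
    dsimp only
    by_cases h : P (H ++ [a])
    · rw [if_pos h]
      dsimp only
      refine ⟨(List.drop_suffix _ _).trans h3, ?_⟩
      rcases h2 with h2 | h2
      · subst h2
        by_cases hm : m ≤ (B ++ [a]).length
        · right
          rw [List.length_drop]; omega
        · left
          rw [show (B ++ [a]).length - m = 0 by omega, List.drop_zero]
      · right
        rw [List.length_drop, List.length_append]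
        simp
        omega
    · rw [if_neg h]
      dsimp only
      refine ⟨h3, ?_⟩
      rcases h2 with h2 | h2
      · exact Or.inl (by rw [h2])
      · right
        rw [List.length_append]; omega

/-- after an event the current block consists of the last `m` letters -/
theorem run_at (x : V) {w : List α} (hw : w ≠ []) (hm : m ≤ w.length) (he : P w) :
    ∃ v, run M m P τ (x, [], []) w = (v, w.drop (w.length - m), w) := by
  obtain ⟨w', a, rfl⟩ : ∃ w' a, w = w' ++ [a] :=
    ⟨w.dropLast, w.getLast hw, (List.dropLast_append_getLast hw).symm⟩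
  have h0 := run_hist (M := M) (m := m) (P := P) (τ := τ) (x, [], []) w'
  obtain ⟨h1, h2⟩ := run_buf (M := M) (m := m) (P := P) (τ := τ) x w'
  rw [run_append, run_single]
  generalize run M m P τ (x, [], []) w' = s at h1 h2 h0
  obtain ⟨v, B, H⟩ := s
  dsimp only at h1 h2 h0
  rw [List.nil_append] at h0
  subst h0
  unfold step
  dsimp only
  rw [if_pos he]
  have h3 : B ++ [a] <:+ H ++ [a] := by
    obtain ⟨t, rfl⟩ := h1
    exact ⟨t, by simp⟩
  have h4 : m ≤ (B ++ [a]).length := by
    rcases h2 with h2 | h2
    · rw [h2]; exact hm
    · rw [List.length_append]; omega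
  rw [drop_sub_of_suffix h3 h4]
  exact ⟨_, rfl⟩

end machine

section parse

variable {α V : Type} [AddCommGroup V] (M : α → V →+ V) (U : Set (List α)) (m T : ℕ)

/-- the action as a homomorphism -/
def actH (w : List α) : V →+ V where
  toFun := act M w
  map_zero' := act_zero M w
  map_add' := act_add M w

theorem actH_apply (w : List α) (v : V) : actH M w v = act M w v := rfl

open Classical in
/-- one step of the decomposition of a block into zones -/
noncomputable def zstep (s : List (Zone V) × List α) (a : α) : List (Zone V) × List α :=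
  if Ev (Lg U m T) (s.2 ++ [a]) then
    (s.1 ++ [(actH M ((s.2 ++ [a]).take ((s.2 ++ [a]).length - m)), (s.2 ++ [a]).length - m)],
      (s.2 ++ [a]).drop ((s.2 ++ [a]).length - m))
  else (s.1, s.2 ++ [a])

noncomputable def zrun (s : List (Zone V) × List α) (w : List α) : List (Zone V) × List α :=
  w.foldl (zstep M U m T) s

/-- the complete zones of a block -/
noncomputable def zs (w : List α) : List (Zone V) := (zrun M U m T ([], []) w).1

/-- the last, incomplete zone of a block -/
noncomputable def zb (w : List α) : List α := (zrun M U m T ([], []) w).2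

variable {M U m T}

theorem zrun_nil (s : List (Zone V) × List α) : zrun M U m T s [] = s := rfl

theorem zrun_cons (s : List (Zone V) × List α) (a : α) (w : List α) :
    zrun M U m T s (a :: w) = zrun M U m T (zstep M U m T s a) w := rfl

theorem zrun_append (s : List (Zone V) × List α) (w w' : List α) :
    zrun M U m T s (w ++ w') = zrun M U m T (zrun M U m T s w) w' := List.foldl_append

theorem zrun_single (s : List (Zone V) × List α) (a : α) :
    zrun M U m T s [a] = zstep M U m T s a := rfl

theorem zrun_quiet {l : List (Zone V)} {b w : List α}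
    (h : ∀ t, 0 < t → t ≤ w.length → ¬ Ev (Lg U m T) (b ++ w.take t)) :
    zrun M U m T (l, b) w = (l, b ++ w) := by
  induction w using List.reverseRecOn with
  | nil => rw [zrun_nil, List.append_nil]
  | append_singleton w a ih =>
    rw [zrun_append, ih, zrun_single]
    · unfold zstep
      dsimp only
      rw [if_neg, List.append_assoc]
      have h1 := h (w ++ [a]).length (by simp) le_rfl
      rwa [List.take_length, ← List.append_assoc] at h1
    · intro t h1 h2
      have h3 := h t h1 (by rw [List.length_append]; omega)
      rwa [List.take_append_of_le_length h2] at h3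

theorem zrun_event {l : List (Zone V)} {b w : List α} (hw : w ≠ [])
    (h : ∀ t, 0 < t → t < w.length → ¬ Ev (Lg U m T) (b ++ w.take t))
    (he : Ev (Lg U m T) (b ++ w)) :
    zrun M U m T (l, b) w = (l ++ [(actH M ((b ++ w).take ((b ++ w).length - m)),
      (b ++ w).length - m)], (b ++ w).drop ((b ++ w).length - m)) := by
  obtain ⟨w', a, rfl⟩ : ∃ w' a, w = w' ++ [a] :=
    ⟨w.dropLast, w.getLast hw, (List.dropLast_append_getLast hw).symm⟩
  have hq : zrun M U m T (l, b) w' = (l, b ++ w') := by
    refine zrun_quiet fun t h1 h2 => ?_
    have h3 := h t h1 (by rw [List.length_append]; simp; omega)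
    rwa [List.take_append_of_le_length h2] at h3
  rw [zrun_append, hq, zrun_single]
  unfold zstep
  dsimp only
  rw [← List.append_assoc] at he
  rw [if_pos he, List.append_assoc]

theorem zrun_list (w : List α) : ∀ (l : List (Zone V)) (b : List α),
    zrun M U m T (l, b) w = (l ++ (zrun M U m T ([], b) w).1, (zrun M U m T ([], b) w).2) := by
  induction w with
  | nil => intro l b; rw [zrun_nil, zrun_nil, List.append_nil]
  | cons a w ih =>
    intro l b
    rw [zrun_cons, zrun_cons]
    unfold zstep
    dsimp only
    by_cases h : Ev (Lg U m T) (b ++ [a])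
    · rw [if_pos h, if_pos h, ih, ih ([] ++ _), List.nil_append, List.append_assoc]
    · rw [if_neg h, if_neg h, ih]

theorem isGap_lg : ∀ z, Lg U m T z → IsGap U m z := fun _ h => h.1

/-- the zones together with the incomplete zone recover the block -/
theorem zrun_split (w : List α) : ∀ (b : List α), b.take m ∈ U → m ≤ b.length →
    ∃ w1, b ++ w = w1 ++ (zrun M U m T ([], b) w).2 ∧
      (∀ v, act M w1 v = actL (zrun M U m T ([], b) w).1 v) ∧
      (zrun M U m T ([], b) w).2.take m ∈ U ∧ m ≤ (zrun M U m T ([], b) w).2.length := by
  induction w with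
  | nil =>
    intro b h1 h2
    exact ⟨[], by rw [zrun_nil, List.append_nil, List.nil_append], fun v => rfl, h1, h2⟩
  | cons a w ih =>
    intro b h1 h2
    rw [zrun_cons]
    unfold zstep
    dsimp only
    by_cases h : Ev (Lg U m T) (b ++ [a])
    · rw [if_pos h, zrun_list]
      dsimp only
      have h3 := h.length isGap_lg
      have h4 := h.mark isGap_lg
      obtain ⟨w1, h5, h6, h7, h8⟩ := ih ((b ++ [a]).drop ((b ++ [a]).length - m)) (by
        rw [List.take_of_length_le (by rw [List.length_drop]; omega)]; exact h4)
        (by rw [List.length_drop]; omega)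
      refine ⟨(b ++ [a]).take ((b ++ [a]).length - m) ++ w1, ?_, fun v => ?_, h7, h8⟩
      · rw [List.append_assoc, ← h5, ← List.append_assoc, List.take_append_drop]
        simp
      · rw [act_append, h6, List.nil_append]
        rfl
    · rw [if_neg h]
      obtain ⟨w1, h5, h6, h7, h8⟩ := ih (b ++ [a]) (by
        rw [List.take_append_of_le_length h2]; exact h1)
        (by rw [List.length_append]; omega)
      exact ⟨w1, by rw [← h5]; simp, h6, h7, h8⟩

theorem zrun_short {w : List α} (h : w.length ≤ m) : zrun M U m T ([], []) w = ([], w) := by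
  rw [zrun_quiet, List.nil_append]
  intro t h1 h2 h3
  have h4 := h3.length isGap_lg
  rw [List.nil_append, List.length_take] at h4
  omega

/-- a block which starts with a mark -/
theorem zrun_block {w : List α} (h1 : w.take m ∈ U) (h2 : m ≤ w.length) :
    ∃ w1, w = w1 ++ zb M U m T w ∧ (∀ v, act M w1 v = actL (zs M U m T w) v) ∧
      (zb M U m T w).take m ∈ U ∧ m ≤ (zb M U m T w).length := by
  have e : zrun M U m T ([], []) w = zrun M U m T ([], w.take m) (w.drop m) := by
    conv_lhs => rw [← List.take_append_drop m w]
    rw [zrun_append, zrun_short (by rw [List.length_take]; omega)]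
  have h3 := zrun_split (M := M) (U := U) (m := m) (T := T) (w.drop m) (w.take m) (by
    rw [List.take_take, min_self]; exact h1) (by rw [List.length_take]; omega)
  rw [List.take_append_drop] at h3
  unfold zb zs
  rw [e]
  exact h3

/-- at an event the incomplete zone consists of the last `m` letters -/
theorem zb_event {w : List α} (h1 : w.take m ∈ U) (h2 : m < w.length)
    (h : Ev (Lg U m T) w) : zb M U m T w = w.drop (w.length - m) := by
  obtain ⟨w', a, rfl⟩ : ∃ w' a, w = w' ++ [a] := by
    have hw : w ≠ [] := by
      rintro rfl
      simp at h2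
    exact ⟨w.dropLast, w.getLast hw, (List.dropLast_append_getLast hw).symm⟩
  have h3 : m ≤ w'.length := by
    rw [List.length_append] at h2
    simp at h2
    omega
  rw [List.take_append_of_le_length h3] at h1
  obtain ⟨w1, h4, -, h5, h6⟩ := zrun_block (M := M) (T := T) h1 h3
  have h7 : Ev (Lg U m T) (zb M U m T w' ++ [a]) := by
    rw [h4, List.append_assoc] at h
    exact (ev_ext isGap_lg h5 h6 (by simp)).1 h
  have h8 : zb M U m T (w' ++ [a]) = (zb M U m T w' ++ [a]).drop
      ((zb M U m T w' ++ [a]).length - m) := by
    show (zrun M U m T ([], []) (w' ++ [a])).2 = _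
    rw [zrun_append, zrun_single]
    show (zstep M U m T (zs M U m T w', zb M U m T w') a).2 = _
    unfold zstep
    dsimp only
    rw [if_pos h7]
  rw [h8]
  refine drop_sub_of_suffix ⟨w1, ?_⟩ ?_
  · rw [← List.append_assoc, ← h4]
  · rw [List.length_append]; omega

/-- the action of the zones of a block which ends with an event -/
theorem act_event {w : List α} (h1 : w.take m ∈ U) (h2 : m < w.length)
    (h : Ev (Lg U m T) w) (v : V) :
    act M (w.take (w.length - m)) v = actL (zs M U m T w) v := by
  obtain ⟨w1, h3, h4, -, h5⟩ := zrun_block (M := M) (T := T) h1 h2.le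
  have h6 := zb_event (M := M) h1 h2 h
  rw [← h4]
  congr 1
  have h7 : w.take (w.length - m) ++ w.drop (w.length - m) = w1 ++ zb M U m T w := by
    rw [List.take_append_drop, ← h3]
  rw [h6] at h7
  exact List.append_cancel_right h7

end parse

end Vale.Agent.P329.TwoMarks
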