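import Vale.Agent.P329.H112.TwoMarks.Text
import Vale.Agent.P329.Clock.Cut

set_option linter.all false

/-!
The cut system of the machine which jumps at the big marks.
-/

namespace Vale.Agent.P329.TwoMarks

open Vale.Agent.P329 Vale.Agent.P329.Slow Vale.Agent.P329.Mark Vale.Agent.P329.Clock

section defs

variable {α V : Type} [AddCommGroup V] (M : α → V →+ V) (U S : Set (List α)) (m T N n : ℕ)
  (Z : ZoneSys V)

/-- the label of a block -/
noncomputable def tau (G : List α) : V :=
  Z.vv (zs M U m T G) - act M (G.take (G.length - m)) (Z.yy (zs M U m T G))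

noncomputable def rn (s : V × List α × List α) (w : List α) : V × List α × List α :=
  run M m (Ev (Big U S m T)) (tau M U m T Z) s w

noncomputable def EE (u : List α) (x : V) : V := vl M (rn M U S m T Z (x, [], []) u)

noncomputable def bf (u : List α) : List α := (rn M U S m T Z (0, [], []) u).2.1

noncomputable def lam (y : V) (u : List α) : V := act M (bf M U S m T Z u) y

structure LQ (y : V) (h B : List α) : Prop where
  len : m ≤ B.length
  mark : B.take m ∈ U
  ev : Ev (Big U S m T) (h ++ B.take m)
  quiet : ∀ t, m < t → t ≤ B.length → ¬ Ev (Big U S m T) (h ++ B.take t)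
  lc : LC U m N B
  la : Z.LA y (zs M U m T B) (zb M U m T B).length

def PL (y : V) (u : List α) : Prop := ∃ h B, u = h ++ B ∧ LQ M U S m T N Z y h B

structure RQ (z : List α) (e j : ℕ) : Prop where
  le : e ≤ n
  len : e ≤ z.length
  rc : RC U S m T N (z.take e) j
  ra : Z.RA (zs M U m T ((z.take e).drop j)) j

def PR (_ : V) (z : List α) : Prop := ∃ e j, RQ M U S m T N n Z z e j

noncomputable def psi (z : List α) (e j : ℕ) : V :=
  vl M (rn M U S m T Z (Z.vr (zs M U m T ((z.take e).drop j)),
    (z.take e).drop ((z.take e).length - m), z.take e) (z.drop e))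

open Classical in
noncomputable def Psi (_ : V) (z : List α) : V :=
  if h : ∃ p : ℕ × ℕ, RQ M U S m T N n Z z p.1 p.2 then
    psi M U S m T Z z h.choose.1 h.choose.2
  else 0

end defs

section lemmas

variable {α V : Type} [AddCommGroup V] {M : α → V →+ V} {U S : Set (List α)} {m T N n : ℕ}
  {Z : ZoneSys V}

theorem rn_append (s : V × List α × List α) (w w' : List α) :
    rn M U S m T Z s (w ++ w') = rn M U S m T Z (rn M U S m T Z s w) w' := run_append _ _ _

theorem block_run {h B : List α} (h1 : m ≤ B.length)
    (h2 : Ev (Big U S m T) (h ++ B.take m))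
    (h3 : ∀ t, m < t → t ≤ B.length → ¬ Ev (Big U S m T) (h ++ B.take t)) (x : V) :
    ∃ v, rn M U S m T Z (x, [], []) (h ++ B) = (v, B, h ++ B) ∧
      ∀ t, m ≤ t → t ≤ B.length →
        rn M U S m T Z (x, [], []) (h ++ B.take t) = (v, B.take t, h ++ B.take t) := by
  have h4 := h2.length big_gap
  obtain ⟨v, hv⟩ := run_at (M := M) (m := m) (P := Ev (Big U S m T)) (τ := tau M U m T Z) x
    (w := h ++ B.take m) (by intro h5; rw [h5] at h4; simp at h4) h4.le h2
  have hl : (B.take m).length = m := by rw [List.length_take]; omega
  have h5 : (h ++ B.take m).drop ((h ++ B.take m).length - m) = B.take m := by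
    rw [← drop_sub_of_suffix (List.suffix_append h (B.take m)) (by omega), hl, Nat.sub_self,
      List.drop_zero]
  rw [h5] at hv
  have key : ∀ t, m ≤ t → t ≤ B.length →
      rn M U S m T Z (x, [], []) (h ++ B.take t) = (v, B.take t, h ++ B.take t) := by
    intro t ht1 ht2
    have e1 : B.take t = B.take m ++ (B.take t).drop m := by
      conv_lhs => rw [← List.take_append_drop m (B.take t)]
      rw [List.take_take, min_eq_left ht1]
    have e2 : h ++ B.take t = (h ++ B.take m) ++ (B.take t).drop m := by
      rw [List.append_assoc, ← e1]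
    rw [e2, rn_append]
    have e3 : rn M U S m T Z (x, [], []) (h ++ B.take m) = (v, B.take m, h ++ B.take m) := hv
    rw [e3]
    have e4 : rn M U S m T Z (v, B.take m, h ++ B.take m) ((B.take t).drop m) =
        (v, B.take m ++ (B.take t).drop m, h ++ B.take m ++ (B.take t).drop m) := by
      refine run_quiet fun s hs1 hs2 => ?_
      rw [List.length_drop, List.length_take] at hs2
      have e5 := h3 (m + s) (by omega) (by omega)
      have e6 : B.take (m + s) = B.take m ++ ((B.take t).drop m).take s := by
        conv_lhs => rw [← List.take_append_drop m (B.take (m + s))]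
        rw [List.take_take, min_eq_left (by omega), List.drop_take, List.drop_take,
          List.take_take]
        congr 2
        omega
      rwa [e6, ← List.append_assoc] at e5
    rw [e4, ← e1]
  refine ⟨v, ?_, key⟩
  have := key B.length h1 le_rfl
  rwa [List.take_length] at this

theorem LQ.run {y : V} {h B : List α} (H : LQ M U S m T N Z y h B) (x : V) :
    ∃ v, rn M U S m T Z (x, [], []) (h ++ B) = (v, B, h ++ B) := by
  obtain ⟨v, hv, -⟩ := block_run H.len H.ev H.quiet x
  exact ⟨v, hv⟩

theorem LQ.bf {y : V} {h B : List α} (H : LQ M U S m T N Z y h B) :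
    bf M U S m T Z (h ++ B) = B := by
  obtain ⟨v, hv⟩ := H.run (0 : V)
  unfold TwoMarks.bf
  rw [hv]

theorem LQ.left {y : V} {h B : List α} (H : LQ M U S m T N Z y h B) (u : List α) :
    LQ M U S m T N Z y (u ++ h) B := by
  refine ⟨H.len, H.mark, ?_, ?_, H.lc, H.la⟩
  · rw [List.append_assoc]
    exact H.ev.left u
  · intro t h1 h2 h3
    refine H.quiet t h1 h2 ?_
    have e1 : B.take t = B.take m ++ (B.take t).drop m := by
      conv_lhs => rw [← List.take_append_drop m (B.take t)]
      rw [List.take_take, min_eq_left h1.le]
    have h4 : (B.take m).take m ∈ U := by rw [List.take_take, min_self]; exact H.mark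
    have h5 : m ≤ (B.take m).length := by rw [List.length_take]; have := H.len; omega
    have h6 : (B.take t).drop m ≠ [] := by
      intro h7
      have := congrArg List.length h7
      rw [List.length_drop, List.length_take, List.length_nil] at this
      omega
    rw [e1] at h3 ⊢
    rw [ev_ext big_gap h4 h5 h6] at h3 ⊢
    exact h3

theorem junc_run (hm : 0 < m) (hT : m = 1 ∨ N + m ≤ T) {y : V} {h B w : List α} {j : ℕ}
    (HL : LQ M U S m T N Z y h B) (HR : RC U S m T N w j)
    (HA : Z.RA (zs M U m T (w.drop j)) j) {x : V}
    (hE : EE M U S m T Z (h ++ B) x = lam M U S m T Z y (h ++ B)) :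
    rn M U S m T Z (x, [], []) (h ++ B ++ w) =
      (Z.vr (zs M U m T (w.drop j)), w.drop (w.length - m), h ++ B ++ w) := by
  obtain ⟨v, hv⟩ := HL.run x
  have hlt := HR.lt
  have e1 : act M B v = act M B y := by
    unfold EE lam at hE
    rw [hv, HL.bf] at hE
    exact hE
  rw [rn_append, hv]
  have e2 : rn M U S m T Z (v, B, h ++ B) w =
      (act M ((B ++ w).take ((B ++ w).length - m)) v + tau M U m T Z (B ++ w),
        (B ++ w).drop ((B ++ w).length - m), h ++ B ++ w) := by
    refine run_event ?_ (junction_quiet hm hT HL.mark HL.len HL.lc HR h) ?_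
    · intro h3; rw [h3] at hlt; simp at hlt
    · exact junction_ev HL.mark HL.len HR h
  rw [e2, ← drop_sub_of_suffix (List.suffix_append B w) (by omega)]
  congr 1
  have e3 : (B ++ w).take ((B ++ w).length - m) = B ++ w.take (w.length - m) := by
    rw [List.length_append, show B.length + w.length - m = B.length + (w.length - m) by omega,
      List.take_length_add_append]
  have e4 : act M ((B ++ w).take ((B ++ w).length - m)) v =
      act M ((B ++ w).take ((B ++ w).length - m)) y := by
    rw [e3, act_append, act_append, e1]
  have e5 : act M ((B ++ w).take ((B ++ w).length - m)) (y - Z.yy (zs M U m T (B ++ w))) =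
      actL (zs M U m T (B ++ w)) (y - Z.yy (zs M U m T (B ++ w))) := by
    refine act_event ?_ ?_ ?_ _
    · rw [List.take_append_of_le_length HL.len]; exact HL.mark
    · rw [List.length_append]; omega
    · obtain ⟨z, hz, hg⟩ := HR.ev
      exact ⟨z, (hz.trans (List.drop_suffix _ _)).trans (List.suffix_append _ _), hg.lg⟩
  have e6 := Z.sound y (zs M U m T B) (actH M (zb M U m T B ++ w.take j))
    (zb M U m T B).length j (zs M U m T (w.drop j)) HL.la HA
  rw [← junction_zs hm hT HL.mark HL.len HL.lc HR] at e6
  rw [e4, ← e6, ← e5, act_sub]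
  unfold tau
  abel

theorem psi_eq (hm : 0 < m) (hT : m = 1 ∨ N + m ≤ T) {y : V} {h B z : List α} {e j : ℕ}
    (HL : LQ M U S m T N Z y h B) (HR : RQ M U S m T N n Z z e j) {x : V}
    (hE : EE M U S m T Z (h ++ B) x = lam M U S m T Z y (h ++ B)) :
    EE M U S m T Z (h ++ B ++ z) x = psi M U S m T Z z e j := by
  have h1 := junc_run hm hT HL HR.rc HR.ra hE
  have hlt := HR.rc.lt
  have hev := HR.rc.ev
  have hmark : (z.take e).drop ((z.take e).length - m) ∈ U := by
    obtain ⟨z', hz', hg⟩ := hev
    exact Ev.mark big_gap ⟨z', hz'.trans (List.drop_suffix _ _), hg⟩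
  unfold EE psi
  conv_lhs => rw [← List.take_append_drop e z]
  rw [← List.append_assoc, rn_append, h1]
  generalize hw : z.take e = w at hlt hmark
  generalize z.drop e = r
  generalize Z.vr (zs M U m T (List.drop j w)) = v
  have h2 := run_congr (M := M) (m := m) (P := Ev (Big U S m T)) (τ := tau M U m T Z) r v
    (w.drop (w.length - m)) (h ++ B ++ w) w (by
      intro t ht1 ht2
      have e1 : w = w.take (w.length - m) ++ w.drop (w.length - m) :=
        (List.take_append_drop _ _).symm
      have h3 : (w.drop (w.length - m)).take m ∈ U := by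
        rw [List.take_of_length_le (by rw [List.length_drop]; omega)]; exact hmark
      have h4 : m ≤ (w.drop (w.length - m)).length := by rw [List.length_drop]; omega
      have h5 : r.take t ≠ [] := by
        intro h7
        have := congrArg List.length h7
        rw [List.length_take, List.length_nil] at this
        omega
      have e2 : w ++ r.take t = w.take (w.length - m) ++ (w.drop (w.length - m) ++ r.take t) := by
        rw [← List.append_assoc, ← e1]
      have e3 : h ++ B ++ w ++ r.take t =
          (h ++ B ++ w.take (w.length - m)) ++ (w.drop (w.length - m) ++ r.take t) := by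
        rw [List.append_assoc (h ++ B) w, e2, ← List.append_assoc]
      rw [e3, e2, ev_ext big_gap h3 h4 h5, ev_ext big_gap h3 h4 h5])
  exact vl_congr h2.1 h2.2

theorem EE_act (w : List α) (x : V) : EE M U S m T Z w x - EE M U S m T Z w 0 = act M w x := by
  have h1 := (run_linear (M := M) (m := m) (P := Ev (Big U S m T)) (τ := tau M U m T Z) w
    x 0 [] []).2
  unfold EE
  refine h1.trans ?_
  show act M w (x - 0) = _
  rw [sub_zero]

end lemmas

end Vale.Agent.P329.TwoMarks
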