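import Vale.Agent.P329.H112.TwoMarks.Mach

set_option linter.all false

/-!
The junction of a left part of a block with a right part of a block.
-/

namespace Vale.Agent.P329.TwoMarks

open Vale.Agent.P329 Vale.Agent.P329.Slow Vale.Agent.P329.Mark

section text

variable {α : Type} {U S : Set (List α)} {m T N j : ℕ} {b w : List α}

theorem big_gap : ∀ z, Big U S m T z → IsGap U m z := fun _ h => h.1

theorem win {z w : List α} {l : ℕ} (hz : z <:+ w.take l) (hl : l ≤ w.length)
    (hm : m ≤ z.length) : z.take m = (w.drop (l - z.length)).take m := by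
  have h1 := List.suffix_iff_eq_drop.1 hz
  have h2 := hz.length_le
  rw [List.length_take, min_eq_left hl] at h1 h2
  conv_lhs => rw [h1]
  rw [List.drop_take, List.take_take, min_eq_left (by omega)]

/-- a word which starts and ends with a mark has a gap word at its end -/
theorem exists_gap (n : ℕ) : ∀ W : List α, W.length ≤ n → m < W.length → W.take m ∈ U →
    W.drop (W.length - m) ∈ U → ∃ z, z <:+ W ∧ IsGap U m z := by
  induction n with
  | zero => intro W h1 h2; omega
  | succ n ih =>
    intro W h1 h2 h3 h4
    by_cases h : ∀ i, 0 < i → i + m < W.length → (W.drop i).take m ∉ U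
    · exact ⟨W, List.suffix_refl _, h2, h3, h4, h⟩
    · push Not at h
      obtain ⟨i, hi, hi2, hi3⟩ := h
      obtain ⟨z, hz, hg⟩ := ih (W.drop i) (by rw [List.length_drop]; omega)
        (by rw [List.length_drop]; omega) hi3 (by
          rw [List.drop_drop, List.length_drop]
          rwa [show i + (W.length - i - m) = W.length - m by omega])
      exact ⟨z, hz.trans (List.drop_suffix _ _), hg⟩

/-- the last marks of the left part are close to the cut -/
def LC (U : Set (List α)) (m N : ℕ) (b : List α) : Prop :=
  ∃ W, W <:+ b ∧ m ≤ W.length ∧ W.length ≤ N + m ∧ W.take m ∈ U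

/-- the condition of the right party -/
structure RC (U S : Set (List α)) (m T N : ℕ) (w : List α) (j : ℕ) : Prop where
  mark : (w.drop j).take m ∈ U
  none : ∀ i < j, (w.drop i).take m ∉ U
  le : T ≤ j
  plain : ∀ x : List α, x.length ≤ N + m → x ++ w.take (j + m) ∉ S
  ev : Ev (Big U S m T) (w.drop j)
  quiet : ∀ t < (w.drop j).length, ¬ Ev (Big U S m T) ((w.drop j).take t)

theorem RC.lt (h : RC U S m T N w j) : j + m < w.length := by
  have h1 := h.ev.length big_gap
  rw [List.length_drop] at h1
  omega

theorem RC.no (hR : RC U S m T N w j) (hL : LC U m N b) (hm : m = 1 ∨ N + m ≤ T) {t : ℕ}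
    (h0 : 0 < t) (h1 : t < j + m) : ¬ Ev (Lg U m T) (b ++ w.take t) := by
  rintro ⟨z, hz, hg, hT⟩
  have hlt := hR.lt
  by_cases ht : m ≤ t
  · have h2 := hg.1
    have h3 : z.drop (z.length - m) <:+ w.take t := by
      refine List.suffix_of_suffix_length_le ((List.drop_suffix _ _).trans hz)
        (List.suffix_append _ _) ?_
      rw [List.length_drop, List.length_take]
      omega
    have h4 := win (m := m) h3 (by omega) (by rw [List.length_drop]; omega)
    rw [List.take_of_length_le (by rw [List.length_drop]; omega), List.length_drop] at h4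
    have h5 := hg.2.2.1
    rw [h4] at h5
    exact hR.none _ (by omega) h5
  · obtain ⟨W, ⟨p, hp⟩, hW1, hW2, hW3⟩ := hL
    have h2 : z <:+ W ++ w.take t := by
      refine gap_suffix (h := p) hg ?_ hW3 hW1 ?_
      · rwa [← List.append_assoc, hp]
      · intro h3
        have := congrArg List.length h3
        rw [List.length_take, List.length_nil] at this
        omega
    have h3 := h2.length_le
    rw [List.length_append, List.length_take] at h3
    omega

theorem RC.yes (hR : RC U S m T N w j) (hL : LC U m N b) (hm : 0 < m) :
    Ev (Lg U m T) (b ++ w.take (j + m)) := by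
  have hlt := hR.lt
  obtain ⟨W, ⟨p, hp⟩, hW1, hW2, hW3⟩ := hL
  have hl : (w.take (j + m)).length = j + m := by rw [List.length_take]; omega
  have hd : (w.take (j + m)).drop ((w.take (j + m)).length - m) = (w.drop j).take m := by
    rw [hl, List.drop_take]
    congr 1
    · omega
    · congr 1; omega
  obtain ⟨z, hz, hg⟩ := exists_gap (U := U) (m := m) _ (W ++ w.take (j + m)) le_rfl
    (by rw [List.length_append, hl]; omega)
    (by rwa [List.take_append_of_le_length hW1])
    (by
      rw [← drop_sub_of_suffix (List.suffix_append W (w.take (j + m))) (by omega), hd]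
      exact hR.mark)
  refine ⟨z, ?_, hg, ?_⟩
  · rw [← hp, List.append_assoc]
    exact hz.trans (List.suffix_append _ _)
  · by_contra hlt2
    have h1 := hg.1
    have h2 := hR.le
    have h3 : z <:+ w.take (j + m) :=
      List.suffix_of_suffix_length_le hz (List.suffix_append _ _) (by omega)
    have h4 := hg.2.1
    rw [win h3 (by omega) h1.le] at h4
    exact hR.none _ (by omega) h4

theorem RC.nb (hR : RC U S m T N w j) (hL : LC U m N b) (hm : 0 < m) :
    ¬ Ev (Big U S m T) (b ++ w.take (j + m)) := by
  rintro ⟨z, hz, hg, hT, hS⟩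
  have hlt := hR.lt
  obtain ⟨W, ⟨p, hp⟩, hW1, hW2, hW3⟩ := hL
  have hl : (w.take (j + m)).length = j + m := by rw [List.length_take]; omega
  have h1 : z <:+ W ++ w.take (j + m) := by
    refine gap_suffix (h := p) hg ?_ hW3 hW1 ?_
    · rwa [← List.append_assoc, hp]
    · intro h3
      rw [h3] at hl
      simp at hl
      omega
  by_cases h2 : z.length < j + m
  · have h3 : z <:+ w.take (j + m) :=
      List.suffix_of_suffix_length_le h1 (List.suffix_append _ _) (by omega)
    have h4 := hg.2.1
    have h5 := hg.1
    rw [win h3 (by omega) h5.le] at h4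
    exact hR.none _ (by omega) h4
  · obtain ⟨x, hx⟩ := List.suffix_of_suffix_length_le (List.suffix_append W (w.take (j + m))) h1
      (by omega)
    have h3 : x.length ≤ N + m := by
      have h4 := h1.length_le
      have h5 := congrArg List.length hx
      rw [List.length_append] at h4 h5
      omega
    refine hR.plain x h3 ?_
    rwa [hx]

end text

section junction

variable {α V : Type} [AddCommGroup V] {M : α → V →+ V} {U S : Set (List α)} {m T N j : ℕ}
  {B w : List α}

theorem LC.zb (h1 : B.take m ∈ U) (h2 : m ≤ B.length) (hL : LC U m N B) :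
    LC U m N (zb M U m T B) := by
  obtain ⟨w1, h3, -, h4, h5⟩ := zrun_block (M := M) (T := T) h1 h2
  obtain ⟨W, hW, hW1, hW2, hW3⟩ := hL
  have h6 : TwoMarks.zb M U m T B <:+ B := ⟨w1, h3.symm⟩
  by_cases h : W.length ≤ (TwoMarks.zb M U m T B).length
  · exact ⟨W, List.suffix_of_suffix_length_le hW h6 h, hW1, hW2, hW3⟩
  · exact ⟨_, List.suffix_refl _, h5, by omega, h4⟩

theorem junction_zs (hm : 0 < m) (hT : m = 1 ∨ N + m ≤ T) (h1 : B.take m ∈ U)
    (h2 : m ≤ B.length) (hL : LC U m N B) (hR : RC U S m T N w j) :
    zs M U m T (B ++ w) = zs M U m T B ++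
      (actH M (zb M U m T B ++ w.take j), (zb M U m T B).length + j) ::
        zs M U m T (w.drop j) := by
  have hlt := hR.lt
  have hL' := hL.zb (M := M) (T := T) h1 h2
  have hl : (w.take (j + m)).length = j + m := by rw [List.length_take]; omega
  have e0 : zrun M U m T ([], []) B = (zs M U m T B, zb M U m T B) := rfl
  have e1 : zrun M U m T (zs M U m T B, zb M U m T B) (w.take (j + m)) =
      (zs M U m T B ++ [(actH M (zb M U m T B ++ w.take j), (zb M U m T B).length + j)],
        (w.drop j).take m) := by
    rw [zrun_event (by intro h3; rw [h3] at hl; simp at hl; omega) ?_ (hR.yes hL' hm)]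
    · have e2 : (zb M U m T B ++ w.take (j + m)).length - m =
          (zb M U m T B).length + j := by rw [List.length_append, hl]; omega
      rw [e2, List.take_length_add_append, List.take_take, min_eq_left (by omega),
        List.drop_length_add_append, List.drop_take, show j + m - j = m by omega]
    · intro t h3 h4
      rw [hl] at h4
      rw [List.take_take, min_eq_left h4.le]
      exact hR.no hL' hT h3 h4
  have e3 : zrun M U m T ([], []) (w.drop j) =
      zrun M U m T ([], (w.drop j).take m) (w.drop (j + m)) := by
    conv_lhs => rw [← List.take_append_drop m (w.drop j)]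
    rw [zrun_append, zrun_short (by rw [List.length_take]; omega), List.drop_drop]
  show (zrun M U m T ([], []) (B ++ w)).1 = _
  rw [zrun_append, e0]
  conv_lhs => rw [← List.take_append_drop (j + m) w]
  rw [zrun_append, e1, zrun_list, ← e3, List.append_assoc]
  rfl

/-- there is no event inside the right part -/
theorem junction_quiet (hm : 0 < m) (hT : m = 1 ∨ N + m ≤ T) (h1 : B.take m ∈ U)
    (h2 : m ≤ B.length) (hL : LC U m N B) (hR : RC U S m T N w j) (h : List α) :
    ∀ t, 0 < t → t < w.length → ¬ Ev (Big U S m T) (h ++ B ++ w.take t) := by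
  intro t h3 h4
  have hlt := hR.lt
  have hL' := hL.zb (M := fun _ => AddMonoidHom.id (ZMod 2)) (T := T) h1 h2
  obtain ⟨w1, h5, -, h6, h7⟩ := zrun_block (M := fun _ => AddMonoidHom.id (ZMod 2)) (T := T) h1 h2
  generalize zb (fun _ => AddMonoidHom.id (ZMod 2)) U m T B = b at h5 h6 h7 hL'
  have hne : ∀ s : ℕ, 0 < s → w.take s ≠ [] := by
    intro s hs h8
    have := congrArg List.length h8
    rw [List.length_take, List.length_nil] at this
    omega
  rcases lt_trichotomy t (j + m) with h8 | h8 | h8
  · rintro ⟨z, hz, hg⟩
    refine hR.no hL' hT h3 h8 ⟨z, ?_, hg.lg⟩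
    rw [h5, List.append_assoc, List.append_assoc, ← List.append_assoc h] at hz
    exact gap_suffix hg.1 hz h6 h7 (hne t h3)
  · rintro ⟨z, hz, hg⟩
    subst h8
    refine hR.nb hL' hm ⟨z, ?_, hg⟩
    rw [h5, List.append_assoc, List.append_assoc, ← List.append_assoc h] at hz
    exact gap_suffix hg.1 hz h6 h7 (hne _ h3)
  · intro h9
    have e1 : w.take t = w.take j ++ (w.drop j).take (t - j) := by
      rw [← List.drop_take]
      conv_lhs => rw [← List.take_append_drop j (w.take t)]
      rw [List.take_take, min_eq_left (by omega)]
    have e2 : (w.drop j).take (t - j) =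
        (w.drop j).take m ++ ((w.drop j).take (t - j)).drop m := by
      conv_lhs => rw [← List.take_append_drop m ((w.drop j).take (t - j))]
      rw [List.take_take, min_eq_left (by omega)]
    rw [e1, e2, ← List.append_assoc] at h9
    rw [ev_ext big_gap (m := m) ?_ ?_ ?_, ← e2] at h9
    · refine hR.quiet _ ?_ h9
      rw [List.length_drop]; omega
    · rw [List.take_take, min_self]
      exact hR.mark
    · rw [List.length_take, List.length_drop]; omega
    · intro h10
      have := congrArg List.length h10
      rw [List.length_drop, List.length_take, List.length_drop, List.length_nil] at this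
      omega

theorem junction_ev (h1 : B.take m ∈ U) (h2 : m ≤ B.length) (hR : RC U S m T N w j)
    (h : List α) : Ev (Big U S m T) (h ++ B ++ w) := by
  have h3 := hR.ev.left (h ++ B ++ w.take j)
  rwa [List.append_assoc, List.append_assoc, List.take_append_drop, ← List.append_assoc] at h3

end junction

end Vale.Agent.P329.TwoMarks
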