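import Mathlib.Algebra.Group.Hom.Basic
import Mathlib.Data.ZMod.Basic
import Mathlib.Data.Nat.ChineseRemainder
import Mathlib.Data.Fintype.Prod
import Mathlib.Tactic

set_option linter.all false

/-!
Lists of zones: a flow on the blocks of a text which are cut into zones, and the places where every
strand can be cut. The index of a zone is counted from the right end of the block; the left party
does not know it.
-/

namespace Vale.Agent.P329.TwoMarks

/-- A zone: its content (an endomorphism) and its length. -/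
abbrev Zone (V : Type) [AddCommGroup V] : Type := (V →+ V) × ℕ

section defs

variable {V : Type} [AddCommGroup V]

/-- the action of a list of zones, the first zone acts first -/
def actL : List (Zone V) → (V →+ V)
  | [] => AddMonoidHom.id V
  | z :: l => (actL l).comp z.1

theorem actL_append (l1 l2 : List (Zone V)) : actL (l1 ++ l2) = (actL l2).comp (actL l1) := by
  induction l1 with
  | nil => rfl
  | cons z l ih =>
    show (actL (l ++ l2)).comp z.1 = _
    rw [ih]
    rfl

theorem actL_mid (l1 l2 : List (Zone V)) (z : Zone V) :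
    actL (l1 ++ z :: l2) = (actL l2).comp (z.1.comp (actL l1)) := by
  rw [actL_append]
  rfl

/-- the statement of the first package: functions `gy`, `gv` which serve every need -/
def NeedsStmt (V : Type) [AddCommGroup V] : Prop :=
  ∃ (M : ℕ), 0 < M ∧ ∃ (gy gv : ZMod M → V), ∀ (s0 : ZMod M) (x0 : V →+ V) (y0 : V),
    ∃ (c : (V →+ V) → ZMod M) (I : V → (V →+ V) → Set (ZMod M)) (J : (V →+ V) → Set (ZMod M)),
      (∀ y A, (I y A).Nonempty) ∧
      (∀ y A g B, ∀ i ∈ I y A, ∀ j ∈ J B,
        gv (i + c g + j) + (B.comp (g.comp A)) (y - gy (i + c g + j)) =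
          gv s0 + x0 (y0 - gy s0)) ∧
      (∀ A g B, B.comp (g.comp A) = x0 → ∃ i ∈ I y0 A, ∃ j ∈ J B, s0 = i + c g + j)

/-- What the zones provide: the flow of a block with the list `l` of zones is
`y ↦ vv l + actL l (y - yy l)`; `LA y l1 i` says that the left party, who has read the zones `l1` of
the block and `i` letters of the next zone, offers a cut to the strand `y`; `RA l2 j` says that the
right party, who sees the last `j` letters of the current zone and the zones `l2` up to the end of
the block, offers a cut, with the label `vr l2` at the end of the block. -/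
structure ZoneSys (V : Type) [AddCommGroup V] where
  /-- number of consecutive long zones which are needed -/
  K : ℕ
  /-- length of the long zones -/
  N : ℕ
  K_pos : 0 < K
  N_pos : 0 < N
  vv : List (Zone V) → V
  yy : List (Zone V) → V
  LA : V → List (Zone V) → ℕ → Prop
  RA : List (Zone V) → ℕ → Prop
  vr : List (Zone V) → V
  sound : ∀ (y : V) (l1 : List (Zone V)) (g : V →+ V) (i j : ℕ) (l2 : List (Zone V)),
    LA y l1 i → RA l2 j →
      vv (l1 ++ (g, i + j) :: l2) + actL (l1 ++ (g, i + j) :: l2) (y - yy (l1 ++ (g, i + j) :: l2))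
        = vr l2
  complete : ∀ (y : V) (l : List (Zone V)), ∃ κ < K,
    ∀ (l1 : List (Zone V)) (g : V →+ V) (n : ℕ) (l2 : List (Zone V)),
      l = l1 ++ (g, n) :: l2 → l2.length % K = κ → ∀ o, o + N ≤ n →
        ∃ i j, i + j = n ∧ o ≤ i ∧ i < o + N ∧ LA y l1 i ∧ RA l2 j

end defs

section moduli

/-- pairwise coprime moduli; the first one is `M` -/
def md (M K : ℕ) : ℕ → ℕ
  | 0 => M
  | r + 1 => (r + 1) * (M * K.factorial) + 1

theorem md_pos {M K : ℕ} (hM : 0 < M) (r : ℕ) : 0 < md M K r := by
  cases r with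
  | zero => exact hM
  | succ r => exact Nat.succ_pos _

theorem le_md {M K : ℕ} (r : ℕ) : M ≤ md M K r := by
  cases r with
  | zero => exact le_rfl
  | succ r =>
    have h1 : 0 < K.factorial := Nat.factorial_pos K
    show M ≤ (r + 1) * (M * K.factorial) + 1
    calc M ≤ M * K.factorial := Nat.le_mul_of_pos_right _ h1
      _ ≤ (r + 1) * (M * K.factorial) := Nat.le_mul_of_pos_left _ (Nat.succ_pos r)
      _ ≤ _ := Nat.le_succ _

theorem coprime_md_zero {M K : ℕ} (r : ℕ) : Nat.Coprime M (md M K (r + 1)) := by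
  show Nat.Coprime M ((r + 1) * (M * K.factorial) + 1)
  have : (r + 1) * (M * K.factorial) + 1 = M * ((r + 1) * K.factorial) + 1 := by ring
  rw [this, Nat.coprime_mul_left_add_right]
  exact Nat.coprime_one_right M

theorem coprime_md_succ {M K : ℕ} {r s : ℕ} (hrs : r < s) (hs : s < K) :
    Nat.Coprime (md M K (r + 1)) (md M K (s + 1)) := by
  set Q := M * K.factorial with hQ
  show Nat.Coprime ((r + 1) * Q + 1) ((s + 1) * Q + 1)
  refine Nat.coprime_of_dvd fun p hp h1 h2 => ?_
  have h3 : p ∣ (s - r) * Q := by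
    have h4 := Nat.dvd_sub h2 h1
    have h5 : (s + 1) * Q + 1 - ((r + 1) * Q + 1) = (s - r) * Q := by
      rw [Nat.add_sub_add_right, ← Nat.sub_mul]
      congr 1
      omega
    rwa [h5] at h4
  have h6 : p ∣ Q := by
    rcases (Nat.Prime.dvd_mul hp).1 h3 with h | h
    · have h7 : p ≤ K := (Nat.le_of_dvd (by omega) h).trans (by omega)
      exact (Nat.dvd_factorial hp.pos h7).trans (Dvd.intro_left M rfl)
    · exact h
  have h8 : p ∣ 1 := by
    have h9 := Nat.dvd_sub h1 (Dvd.dvd.mul_left h6 (r + 1))
    rwa [Nat.add_sub_cancel_left] at h9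
  exact hp.one_lt.ne' (Nat.dvd_one.1 h8)

theorem coprime_md {M K : ℕ} {r s : ℕ} (hrs : r ≠ s) (hr : r ≤ K) (hs : s ≤ K) :
    Nat.Coprime (md M K r) (md M K s) := by
  rcases Nat.eq_zero_or_pos r with h | h
  · subst h
    obtain ⟨t, rfl⟩ : ∃ t, s = t + 1 := ⟨s - 1, by omega⟩
    exact coprime_md_zero t
  · obtain ⟨r', rfl⟩ : ∃ t, r = t + 1 := ⟨r - 1, by omega⟩
    rcases Nat.eq_zero_or_pos s with h' | h'
    · subst h'
      exact (coprime_md_zero r').symm
    · obtain ⟨s', rfl⟩ : ∃ t, s = t + 1 := ⟨s - 1, by omega⟩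
      rcases Nat.lt_or_gt_of_ne hrs with h2 | h2
      · exact coprime_md_succ (by omega) (by omega)
      · exact (coprime_md_succ (by omega) (by omega)).symm

/-- the product of all moduli -/
def big (M K : ℕ) : ℕ := ∏ r ∈ Finset.range (K + 1), md M K r

theorem exists_crt {M K : ℕ} (hM : 0 < M) (a : ℕ → ℕ) :
    ∃ i, i < big M K ∧ ∀ r ≤ K, i ≡ a r [MOD md M K r] := by
  have hs : ∀ i ∈ Finset.range (K + 1), md M K i ≠ 0 := fun i _ => (md_pos hM i).ne'
  have pp : Set.Pairwise (Finset.range (K + 1)) (Function.onFun Nat.Coprime (md M K)) := by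
    intro r hr s hs' hrs
    rw [Finset.mem_coe, Finset.mem_range] at hr hs'
    exact coprime_md hrs (by omega) (by omega)
  refine ⟨Nat.chineseRemainderOfFinset a (md M K) (Finset.range (K + 1)) hs pp,
    Nat.chineseRemainderOfFinset_lt_prod a (md M K) hs pp, fun r hr => ?_⟩
  exact (Nat.chineseRemainderOfFinset a (md M K) (Finset.range (K + 1)) hs pp).2 r
    (Finset.mem_range.2 (by omega))

theorem exists_crt' {M K : ℕ} (hM : 0 < M) (a : ℕ → ℕ) (o : ℕ) :
    ∃ i, o ≤ i ∧ i < o + big M K ∧ ∀ r ≤ K, i ≡ a r [MOD md M K r] := by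
  obtain ⟨i0, h1, h2⟩ := exists_crt (K := K) hM a
  have hP : 0 < big M K := lt_of_le_of_lt (Nat.zero_le _) h1
  refine ⟨o + (i0 + (big M K - o % big M K)) % big M K, Nat.le_add_right _ _,
    Nat.add_lt_add_left (Nat.mod_lt _ hP) _, fun r hr => ?_⟩
  refine Nat.ModEq.trans ?_ (h2 r hr)
  have h3 : md M K r ∣ big M K := Finset.dvd_prod_of_mem _ (Finset.mem_range.2 (by omega))
  refine Nat.ModEq.of_dvd h3 ?_
  have h4 : o + (i0 + (big M K - o % big M K)) % big M K ≡
      o + (i0 + (big M K - o % big M K)) [MOD big M K] := (Nat.mod_modEq _ _).add_left _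
  refine h4.trans ?_
  have h5 := Nat.mod_lt o hP
  have h6 := Nat.div_add_mod o (big M K)
  have h7 : o + (i0 + (big M K - o % big M K)) = i0 + big M K * (o / big M K + 1) := by
    rw [Nat.mul_add, Nat.mul_one]
    omega
  rw [h7]
  show (i0 + big M K * (o / big M K + 1)) % big M K = i0 % big M K
  rw [Nat.add_mul_mod_self_left]

theorem big_pos {M K : ℕ} (hM : 0 < M) : 0 < big M K :=
  Finset.prod_pos fun i _ => md_pos hM i

end moduli

section sys

variable {V : Type} [AddCommGroup V] {M K : ℕ} (c : ℕ → (V →+ V) → ZMod M)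

/-- the length modulo the modulus number `r + 1`, read modulo `M` -/
def kap (M K : ℕ) (r n : ℕ) : ZMod M := ((n % md M K (r % K + 1) : ℕ) : ZMod M)

theorem kap_add {M K r i j : ℕ} (h : md M K (r % K + 1) ∣ j) :
    kap M K r (i + j) = kap M K r i := by
  obtain ⟨t, rfl⟩ := h
  unfold kap
  rw [Nat.add_mul_mod_self_left]

/-- the contribution of a zone with index `r` -/
def ctr (M K : ℕ) (c : ℕ → (V →+ V) → ZMod M) (r : ℕ) (z : Zone V) : ZMod M :=
  c (r % K) z.1 + kap M K r z.2 - (z.2 : ZMod M)

/-- the sum of the contributions of a list of zones which is followed by `t` zones -/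
def sm (M K : ℕ) (c : ℕ → (V →+ V) → ZMod M) (t : ℕ) : List (Zone V) → ZMod M
  | [] => 0
  | z :: l => ctr M K c (t + l.length + 1) z + sm M K c t l

theorem sm_append (t : ℕ) (l1 l2 : List (Zone V)) :
    sm M K c t (l1 ++ l2) = sm M K c (t + l2.length) l1 + sm M K c t l2 := by
  induction l1 with
  | nil => simp [sm]
  | cons z l ih =>
    show ctr M K c (t + (l ++ l2).length + 1) z + sm M K c t (l ++ l2) = _
    rw [ih, List.length_append]
    show _ = ctr M K c (t + l2.length + l.length + 1) z + sm M K c (t + l2.length) l + _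
    rw [← add_assoc, show t + (l.length + l2.length) + 1 = t + l2.length + l.length + 1 by omega]

theorem sm_mid (l1 l2 : List (Zone V)) (z : Zone V) :
    sm M K c 0 (l1 ++ z :: l2) =
      sm M K c (l2.length + 1) l1 + ctr M K c (l2.length + 1) z + sm M K c 0 l2 := by
  rw [sm_append, List.length_cons, Nat.zero_add]
  show _ + (ctr M K c (0 + l2.length + 1) z + sm M K c 0 l2) = _
  rw [Nat.zero_add, add_assoc]

theorem ctr_mod (r : ℕ) (z : Zone V) : ctr M K c (r % K) z = ctr M K c r z := by
  unfold ctr kap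
  rw [Nat.mod_mod]

theorem ctr_congr {r r' : ℕ} (h : r % K = r' % K) (z : Zone V) :
    ctr M K c r z = ctr M K c r' z := by
  rw [← ctr_mod, h, ctr_mod]

theorem sm_congr {t t' : ℕ} (h : t % K = t' % K) (l : List (Zone V)) :
    sm M K c t l = sm M K c t' l := by
  induction l with
  | nil => rfl
  | cons z l ih =>
    show ctr M K c (t + l.length + 1) z + _ = ctr M K c (t' + l.length + 1) z + _
    rw [ih, ctr_congr c (r := t + l.length + 1) (r' := t' + l.length + 1)]
    have h2 : t ≡ t' [MOD K] := h
    exact (h2.add_right l.length).add_right 1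

end sys

section main

variable {V : Type} [AddCommGroup V]

theorem exists_zoneSys (V : Type) [Finite V] [AddCommGroup V] (H : NeedsStmt V) :
    Nonempty (ZoneSys V) := by
  classical
  obtain ⟨M, hM, gy, gv, H⟩ := H
  have : NeZero M := ⟨hM.ne'⟩
  have hfV : Fintype V := Fintype.ofFinite V
  have hfH : Finite (V →+ V) := Finite.of_injective (fun f : V →+ V => (f : V → V))
    DFunLike.coe_injective
  have hfH' : Fintype (V →+ V) := Fintype.ofFinite _
  -- the needs
  set K := Fintype.card (ZMod M × (V →+ V) × V) with hK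
  have hK0 : 0 < K := Fintype.card_pos_iff.2 ⟨(0, 0, 0)⟩
  let e : ZMod M × (V →+ V) × V ≃ Fin K := Fintype.equivFin _
  let nd : ℕ → ZMod M × (V →+ V) × V := fun r => e.symm ⟨r % K, Nat.mod_lt _ hK0⟩
  have hnd : ∀ r, nd (r % K) = nd r := fun r => by
    show e.symm ⟨r % K % K, _⟩ = e.symm ⟨r % K, _⟩
    congr 2
    exact Nat.mod_mod _ _
  choose c I J h1 h2 h3 using fun r : ℕ => H (nd r).1 (nd r).2.1 (nd r).2.2
  let w : ℕ → V := fun r => gv (nd r).1 + (nd r).2.1 ((nd r).2.2 - gy (nd r).1)
  have hw : ∀ r, w (r % K) = w r := fun r => by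
    show gv (nd (r % K)).1 + (nd (r % K)).2.1 ((nd (r % K)).2.2 - gy (nd (r % K)).1) = _
    rw [hnd]
  refine ⟨{
    K := K
    N := big M K
    K_pos := hK0
    N_pos := big_pos hM
    vv := fun l => gv (sm M K c 0 l)
    yy := fun l => gy (sm M K c 0 l)
    LA := fun y l1 i => ∀ r, sm M K c r l1 + kap M K r i - (i : ZMod M) ∈ I (r % K) y (actL l1)
    RA := fun l2 j => md M K ((l2.length + 1) % K + 1) ∣ j ∧
      sm M K c 0 l2 - (j : ZMod M) ∈ J ((l2.length + 1) % K) (actL l2)
    vr := fun l2 => w (l2.length + 1)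
    sound := ?_
    complete := ?_ }⟩
  · rintro y l1 g i j l2 hL ⟨hd, hR⟩
    set r := l2.length + 1 with hr
    have h4 := h2 (r % K) y (actL l1) g (actL l2) _ (hL r) _ hR
    have h5 : sm M K c 0 (l1 ++ (g, i + j) :: l2) =
        sm M K c r l1 + kap M K r i - (i : ZMod M) + c (r % K) g +
          (sm M K c 0 l2 - (j : ZMod M)) := by
      rw [sm_mid]
      unfold ctr
      dsimp only
      rw [kap_add hd, Nat.cast_add]
      ring
    rw [actL_mid, h5]
    show _ = w r
    rw [← hw r]
    exact h4
  · intro y l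
    -- the zone which serves the need
    have key : ∀ (l1 : List (Zone V)) (g : V →+ V) (n : ℕ) (l2 : List (Zone V)) (o : ℕ),
        o + big M K ≤ n → nd (l2.length + 1) =
          (sm M K c 0 (l1 ++ (g, n) :: l2), actL (l1 ++ (g, n) :: l2), y) →
        ∃ i j, i + j = n ∧ o ≤ i ∧ i < o + big M K ∧
          (∀ r, sm M K c r l1 + kap M K r i - (i : ZMod M) ∈ I (r % K) y (actL l1)) ∧
          md M K ((l2.length + 1) % K + 1) ∣ j ∧
            sm M K c 0 l2 - (j : ZMod M) ∈ J ((l2.length + 1) % K) (actL l2) := by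
      intro l1 g n l2 o hn hneed
      set r := l2.length + 1 with hr
      have hneed' : nd (r % K) =
          (sm M K c 0 (l1 ++ (g, n) :: l2), actL (l1 ++ (g, n) :: l2), y) := by
        rw [hnd]; exact hneed
      obtain ⟨i', hi', j', hj', hs⟩ := h3 (r % K) (actL l1) g (actL l2) (by
        rw [hneed', actL_mid])
      rw [hneed'] at hi' hs
      dsimp only at hi' hs
      -- the residues
      choose q hq using fun ρ : ℕ => h1 (ρ % K) y (actL l1)
      let t : ZMod M := (n : ZMod M) - sm M K c 0 l2 + j'
      let res : ℕ → ℕ := fun s => if s = 0 then t.val else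
        if (s - 1) = r % K then n else (q (s - 1) - sm M K c (s - 1) l1 + t).val
      obtain ⟨i, hoi, hi, hmod⟩ := exists_crt' (K := K) hM res o
      have hin : i ≤ n := (hi.le).trans hn
      have hit : (i : ZMod M) = t := by
        have h := hmod 0 (Nat.zero_le _)
        have h' : i ≡ t.val [MOD M] := h
        rw [← ZMod.natCast_eq_natCast_iff] at h'
        rw [h', ZMod.natCast_zmod_val]
      have hri : i ≡ n [MOD md M K (r % K + 1)] := by
        have h := hmod (r % K + 1) (by have := Nat.mod_lt r hK0; omega)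
        have e1 : res (r % K + 1) = n := by
          show (if r % K + 1 = 0 then t.val else if (r % K + 1 - 1) = r % K then n else _) = n
          rw [if_neg (Nat.succ_ne_zero _), Nat.add_sub_cancel, if_pos rfl]
        rwa [e1] at h
      refine ⟨i, n - i, by omega, hoi, hi, ?_, ?_, ?_⟩
      · intro ρ
        by_cases hρ : ρ % K = r % K
        · have e2 : kap M K ρ i = kap M K r n := by
            unfold kap
            rw [hρ]
            exact congrArg _ hri
          have e3 : sm M K c ρ l1 + kap M K ρ i - (i : ZMod M) = i' := by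
            rw [e2, sm_congr c hρ, hit]
            show sm M K c r l1 + kap M K r n - ((n : ZMod M) - sm M K c 0 l2 + j') = i'
            rw [sm_mid] at hs
            unfold ctr at hs
            dsimp only at hs
            rw [← hr] at hs
            linear_combination hs
          rw [e3, hρ]
          exact hi'
        · have e4 := hmod (ρ % K + 1) (by have := Nat.mod_lt ρ hK0; omega)
          have e5 : res (ρ % K + 1) = (q (ρ % K) - sm M K c (ρ % K) l1 + t).val := by
            show (if ρ % K + 1 = 0 then t.val else if (ρ % K + 1 - 1) = r % K then n else _) = _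
            rw [if_neg (Nat.succ_ne_zero _), Nat.add_sub_cancel, if_neg hρ]
          rw [e5] at e4
          have e6 : kap M K ρ i = q (ρ % K) - sm M K c (ρ % K) l1 + t := by
            unfold kap
            have e7 : i % md M K (ρ % K + 1) =
                (q (ρ % K) - sm M K c (ρ % K) l1 + t).val % md M K (ρ % K + 1) := e4
            rw [e7, Nat.mod_eq_of_lt ((ZMod.val_lt _).trans_le (le_md _)),
              ZMod.natCast_zmod_val]
          have e8 : sm M K c ρ l1 + kap M K ρ i - (i : ZMod M) = q (ρ % K) := by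
            rw [e6, hit, sm_congr c (Nat.mod_mod ρ K).symm]
            ring
          rw [e8]
          have e9 := hq (ρ % K)
          rwa [Nat.mod_mod] at e9
      · exact (Nat.modEq_iff_dvd' hin).1 hri
      · have e10 : sm M K c 0 l2 - ((n - i : ℕ) : ZMod M) = j' := by
          rw [Nat.cast_sub hin, hit]
          show sm M K c 0 l2 - ((n : ZMod M) - ((n : ZMod M) - sm M K c 0 l2 + j')) = j'
          ring
        rw [e10]
        exact hj'
    -- find the index
    let ν : Fin K := e (sm M K c 0 l, actL l, y)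
    refine ⟨(ν + (K - 1)) % K, Nat.mod_lt _ hK0, ?_⟩
    intro l1 g n l2 hl hκ o ho
    have hκ' : (l2.length + 1) % K = ν := by
      have h9 := ν.2
      have h5 : l2.length ≡ ν + (K - 1) [MOD K] := hκ
      have h6 : l2.length + 1 ≡ ν + (K - 1) + 1 [MOD K] := h5.add_right 1
      have h7 : (ν : ℕ) + (K - 1) + 1 = ν + K := by omega
      rw [h7] at h6
      have h8 : (l2.length + 1) % K = (ν + K) % K := h6
      rw [h8, Nat.add_mod_right, Nat.mod_eq_of_lt ν.2]
    have hneed : nd (l2.length + 1) = (sm M K c 0 (l1 ++ (g, n) :: l2),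
        actL (l1 ++ (g, n) :: l2), y) := by
      rw [← hl]
      show e.symm ⟨(l2.length + 1) % K, _⟩ = _
      rw [Equiv.symm_apply_eq]
      exact Fin.ext hκ'
    obtain ⟨i, j, hij, ho1, ho2, hL, hR⟩ := key l1 g n l2 o ho hneed
    exact ⟨i, j, hij, ho1, ho2, hL, hR⟩

end main

end Vale.Agent.P329.TwoMarks
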